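import Crest.Agent.R193.FU.Esc

/-!
# R193/FU/Main: finite Riemann mapping theorem on a periodic strip
-/

set_option autoImplicit false
open Set Metric Filter Topology MeasureTheory

namespace Crest.Agent.R193

theorem frm : FRM := by
  intro N₀
  have hN : (0 : ℝ) ≤ N₀ := Nat.cast_nonneg _
  refine ⟨4 * (N₀ : ℝ) ^ 2 + 30 * N₀ + 1, by nlinarith, fun ι _ c T => ?_⟩
  obtain ⟨w, hw⟩ := exists_ext c
  obtain ⟨u, hu⟩ := hw.exists_conj T
  have hI := hw.II_pos T
  have ctx : ∀ η : ℝ, (∀ i, osc w (c i) ≤ η) → Ctx c N₀ w u η := fun η hη => ⟨T, hw, hu, hη⟩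
  have big : ∀ η : ℝ, 0 < η → ∀ t : ℝ, t ≤ 30 →
      t * (N₀ * η) ≤ (4 * (N₀ : ℝ) ^ 2 + 30 * N₀ + 1) * η := fun η hη t ht => by
    have : 0 ≤ (N₀ : ℝ) * η := by positivity
    have : 0 ≤ (N₀ : ℝ) ^ 2 * η := by positivity
    nlinarith
  refine ⟨w, u, II c w, hw.per, hw.mem, hw.bot, hw.top, rfl, hI, hu.per, ?_, ?_, ?_, ?_, ?_, ?_⟩
  · obtain ⟨C, hC⟩ := hu.u_lin T
    refine fun R => ⟨C + II c w * R, fun z hz hR => ?_⟩
    have h1 := hC z hz
    have h2 : |z.re| ≤ R := (Complex.abs_re_le_norm z).trans hR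
    have h3 : |II c w * z.re| ≤ II c w * R := by
      rw [abs_mul, abs_of_pos hI]; exact mul_le_mul_of_nonneg_left h2 hI.le
    calc |u z| = |(u z - II c w * z.re) + II c w * z.re| := by ring_nf
      _ ≤ _ := (abs_add_le _ _).trans (add_le_add h1 h3)
  · exact (hu.u_en T).trans (mul_le_mul_of_nonneg_right (by nlinarith) hI.le)
  · intro η hη i hi
    have h := ctx η hη
    have hp := h.η_pos
    refine osc_le (by positivity) fun a ha b hb => ?_
    have := h.u_tile (p := (i, 0)) (by rwa [tile_zero]) (a := a) (b := b) (by rwa [tile_zero])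
      (by rwa [tile_zero])
    have h2 := big η hp 1 (by norm_num)
    linarith [le_abs_self (u a - u b)]
  · intro η hη α
    have h := ctx η hη
    obtain ⟨V, hV, ha, hb, hz⟩ := h.wall α
    have h2 := big η h.η_pos 1 (by norm_num)
    exact ⟨V, hV.cpt, hV.conn, hV.sub, ha, hb, fun z hz' => by linarith [hz z hz']⟩
  · intro s₁ s₂ h0 h1 h2
    obtain ⟨s, hs, hs'⟩ := hw.exists_cutSum h0 h1 h2
    exact ⟨s, hs, hw.goodLevel T (by linarith [hs.1]) (by linarith [hs.2]) hs'⟩
  · intro η hη hsm hin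
    have h0 := ctx η hη
    have hp := h0.η_pos
    have hle := h0.η_le
    have h : Ctx2 c N₀ w u η := ⟨h0, (big η hp 30 le_rfl).trans hsm, hin⟩
    refine ⟨fun α β s₁ s₂ S hαβ h1 h2 h3 hS => (h.box hαβ h1 h2 h3 S hS).trans ?_,
      fun x z hx hz => ?_, fun y hy => ?_, fun y hy N => ?_⟩
    · have e1 := big η hp 8 (by norm_num)
      have e2 := big η hp 4 (by norm_num)
      have e3 : 0 ≤ (N₀ : ℝ) * η := by positivity
      refine mul_le_mul (by nlinarith) (mul_le_mul (by linarith) (by linarith) (by linarith)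
        (by linarith)) (mul_nonneg (by linarith) (by linarith)) (by positivity)
    · obtain ⟨E, hE, h1, h2, h3⟩ := h.conn hx hz
      have e1 := big η hp 14 (by norm_num)
      have e2 := big η hp 5 (by norm_num)
      exact ⟨E, hE.cpt, hE.conn, hE.sub, h1, h2, fun y hy =>
        ⟨by linarith [(h3 y hy).1], by linarith [(h3 y hy).2]⟩⟩
    · obtain ⟨F, hF, h1, h2, h3⟩ := h.escU hy
      have e1 := big η hp 14 (by norm_num)
      exact ⟨F, hF.cpt, hF.conn, hF.sub, h1, h2, fun z hz => by linarith [h3 z hz]⟩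
    · obtain ⟨F, hF, h1, h2, h3⟩ := h.escW hy N
      have e1 := big η hp 3 (by norm_num)
      exact ⟨F, hF.cpt, hF.conn, hF.sub, h1, h2, fun z hz => by linarith [h3 z hz]⟩

end Crest.Agent.R193
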