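import Crest.Agent.R193.FU.Tile

/-!
# R193/FU/Sep: separation in the strip

* `cross_meet`: if disjoint, take `ε > 0` with `thickening ε K`, `thickening ε L` disjoint, `thickening ε L ⊆ {a < re < b}`, `thickening ε K ⊆ {im q < im < im p}`; they are open and
  preconnected (union of balls meeting a preconnected set), so path connected: paths `σ` from `x` to `y`, `γ` from `q` to `p`; `R40.miranda` for
  `f₁ z = re (σ.extend z.re) - re (γ.extend z.im)`, `f₂ z = im (γ.extend z.im) - im (σ.extend z.re)`.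
* `above_bot`: `above Y` is open and connected, hence path connected; the range of a path is a continuum.
* `long_frontier`: `R40.cross` with `φ z = N' (2 im z - 1) + i (3 re z - 1)`, `P0 = closure {w ≤ s}`, `P1 = closure {s < w}`; `P0 ∩ P1 = frontier`.
-/

set_option autoImplicit false
open Set Metric Filter Topology MeasureTheory

namespace Crest.Agent.R193

variable {w : ℂ → ℝ}

private theorem sepa_miranda {f₁ f₂ : ℂ → ℝ} (c₁ : Continuous f₁) (c₂ : Continuous f₂)
    (hl : ∀ w : ℂ, w.re = 0 → f₁ w < 0) (hr : ∀ w : ℂ, w.re = 1 → 0 < f₁ w)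
    (hb : ∀ w : ℂ, w.im = 0 → f₂ w < 0) (ht : ∀ w : ℂ, w.im = 1 → 0 < f₂ w) :
    ∃ w, f₁ w = 0 ∧ f₂ w = 0 := by
  obtain ⟨K, -, hK, hKP, -, ⟨w0, -, h0, hk0⟩, ⟨w1, -, h1, hk1⟩⟩ :=
    R40.cross id continuous_id (P0 := {w | f₁ w ≤ 0}) (P1 := {w | 0 ≤ f₁ w})
      (isClosed_le c₁ continuous_const) (isClosed_le continuous_const c₁)
      (fun w _ => le_total (f₁ w) 0) (fun w _ h => not_le.2 (hl w h)) (fun w _ h => not_le.2 (hr w h))
  obtain ⟨w, hw, h⟩ := hK.intermediate_value hk0 hk1 c₂.continuousOn ⟨(hb w0 h0).le, (ht w1 h1).le⟩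
  exact ⟨w, le_antisymm (hKP hw).1 (hKP hw).2, h⟩

private theorem sepa_joined {K U : Set ℂ} (hK : IsPreconnected K) (hU : IsOpen U) (hKU : K ⊆ U)
    {x y : ℂ} (hx : x ∈ K) (hy : y ∈ K) : ∃ σ : ℝ → ℂ, Continuous σ ∧ σ 0 = x ∧ σ 1 = y ∧
      ∀ t, σ t ∈ U := by
  have h1 : IsPathConnected (connectedComponentIn U x) :=
    hU.connectedComponentIn.isConnected_iff_isPathConnected.1
      (isConnected_connectedComponentIn_iff.2 (hKU hx))
  have h2 : K ⊆ connectedComponentIn U x := hK.subset_connectedComponentIn hx hKU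
  obtain ⟨γ, hγ⟩ := h1.joinedIn x (h2 hx) y (h2 hy)
  refine ⟨γ.extend, γ.continuous_extend, γ.extend_zero, γ.extend_one, fun t => ?_⟩
  have h3 : γ.extend t ∈ range γ := by
    rw [← γ.extend_range]; exact mem_range_self t
  obtain ⟨s, hs⟩ := h3
  rw [← hs]
  exact connectedComponentIn_subset _ _ (hγ s)

theorem cross_meet {K L : Set ℂ} {a b : ℝ} (hK : Cn K) (hx : ∃ x ∈ K, x.re ≤ a)
    (hy : ∃ y ∈ K, b ≤ y.re) (hL : IsCompact L) (hL' : IsPreconnected L)
    (hab : ∀ z ∈ L, a < z.re ∧ z.re < b) (hp : ∃ p ∈ L, 1 < p.im) (hq : ∃ q ∈ L, q.im < 0) :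
    (K ∩ L).Nonempty := by
  obtain ⟨x, hx, hxa⟩ := hx
  obtain ⟨y, hy, hyb⟩ := hy
  obtain ⟨p, hp, hp1⟩ := hp
  obtain ⟨q, hq, hq0⟩ := hq
  by_contra hne
  obtain ⟨U, V, hU, hV, hKU, hLV, hUV⟩ := SeparatedNhds.of_isCompact_isCompact hK.cpt hL
    (disjoint_iff_inter_eq_empty.2 (not_nonempty_iff_eq_empty.1 hne))
  obtain ⟨σ, cσ, σ0, σ1, hσ⟩ := sepa_joined (U := U ∩ ({z | q.im < z.im} ∩ {z | z.im < p.im})) hK.conn
    (hU.inter ((isOpen_lt continuous_const Complex.continuous_im).inter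
      (isOpen_lt Complex.continuous_im continuous_const)))
    (fun z hz => ⟨hKU hz, hq0.trans_le (hK.sub hz).1, (hK.sub hz).2.trans_lt hp1⟩) hx hy
  obtain ⟨γ, cγ, γ0, γ1, hγ⟩ := sepa_joined (U := V ∩ ({z | a < z.re} ∩ {z | z.re < b})) hL'
    (hV.inter ((isOpen_lt continuous_const Complex.continuous_re).inter
      (isOpen_lt Complex.continuous_re continuous_const)))
    (fun z hz => ⟨hLV hz, hab z hz⟩) hq hp
  obtain ⟨z, h1, h2⟩ := sepa_miranda (f₁ := fun z => (σ z.re).re - (γ z.im).re)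
    (f₂ := fun z => (γ z.im).im - (σ z.re).im) (by fun_prop) (by fun_prop)
    (fun z h => by
      have h3 : a < (γ z.im).re := (hγ z.im).2.1
      rw [h, σ0]; linarith)
    (fun z h => by
      have h3 : (γ z.im).re < b := (hγ z.im).2.2
      rw [h, σ1]; linarith)
    (fun z h => by
      have h3 : q.im < (σ z.re).im := (hσ z.re).2.1
      rw [h, γ0]; linarith)
    (fun z h => by
      have h3 : (σ z.re).im < p.im := (hσ z.re).2.2
      rw [h, γ1]; linarith)
  have h3 : σ z.re = γ z.im := Complex.ext (by linarith) (by linarith)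
  exact Set.disjoint_left.1 hUV (hσ z.re).1 (h3 ▸ (hγ z.im).1)

theorem Long.separ {Y : Set ℂ} (h : Long Y) (hY : Y ⊆ strip) : Separ Y := by
  intro L hL hL' hp hq
  obtain ⟨N, hN⟩ := hL.isBounded.exists_norm_le
  obtain ⟨K, hK, hK', hKY, hx, hy⟩ := h (N + 1)
  obtain ⟨z, hz⟩ := cross_meet ⟨hK, hK', hKY.trans hY⟩ hx hy hL hL' (fun z hz => by
    have h1 := abs_le.1 ((Complex.abs_re_le_norm z).trans (hN z hz))
    constructor <;> linarith [h1.1, h1.2]) hp hq
  exact ⟨z, hz.2, hKY hz.1⟩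

theorem above_top {Y : Set ℂ} (hY : Y ⊆ strip) {z : ℂ} (hz : 1 < z.im) : z ∈ above Y := by
  exact (convex_halfSpace_im_gt 1).isPreconnected.subset_connectedComponentIn (F := Yᶜ) (by simp)
    (fun x hx hx' => absurd (hY hx').2 (not_le.2 hx)) hz

theorem above_bot {Y : Set ℂ} (hY : Y ⊆ strip) (hc : IsClosed Y) (hs : Separ Y) {z : ℂ}
    (hz : z.im < 0) : z ∉ above Y := by
  intro h
  have h2 : 1 < (2 * Complex.I).im := by simp
  obtain ⟨γ, hγ⟩ := (hc.isOpen_compl.connectedComponentIn.isConnected_iff_isPathConnected.1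
    ⟨⟨z, h⟩, isPreconnected_connectedComponentIn⟩).joinedIn _ (above_top hY h2) _ h
  obtain ⟨_, ⟨t, rfl⟩, ht⟩ := hs _ (isCompact_range γ.continuous) (isPreconnected_range γ.continuous)
    ⟨_, γ.source_mem_range, h2⟩ ⟨_, γ.target_mem_range, hz⟩
  exact connectedComponentIn_subset _ _ (hγ t) ht

theorem above_cut {Y B : Set ℂ} (hB : IsPreconnected B) (h1 : ∃ a ∈ B, a ∈ above Y)
    (h2 : ∃ b ∈ B, b ∉ above Y) : (B ∩ Y).Nonempty := by
  obtain ⟨a, ha, ha'⟩ := h1
  obtain ⟨b, hb, hb'⟩ := h2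
  by_contra h
  have := hB.subset_connectedComponentIn (F := Yᶜ) ha (fun x hx hx' => h ⟨x, hx, hx'⟩) hb
  rw [← connectedComponentIn_eq ha'] at this
  exact hb' this

theorem above_per_aux {Y : Set ℂ} (hY : Y ⊆ strip) {m : ℂ} (hm : m.im = 0) (h : ∀ z, z + m ∈ Y → z ∈ Y) {z : ℂ}
    (hz : z ∈ above Y) : z + m ∈ above Y := by
  have h1 : 2 * Complex.I + m ∈ above Y := above_top hY (by simp [hm])
  have h2 := (isPreconnected_connectedComponentIn.image (fun z => z + m)
    (continuous_add_const m).continuousOn).subset_connectedComponentIn (F := Yᶜ)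
    (mem_image_of_mem _ (above_top hY (z := 2 * Complex.I) (by simp)))
    (by rintro _ ⟨x, hx, rfl⟩ hx'; exact connectedComponentIn_subset _ _ hx (h x hx'))
    (mem_image_of_mem _ hz)
  rwa [← connectedComponentIn_eq h1] at h2

theorem above_per {Y : Set ℂ} (hY : Y ⊆ strip) {n : ℤ} (h : ∀ z, z + (n : ℂ) ∈ Y ↔ z ∈ Y) (z : ℂ) :
    z + (n : ℂ) ∈ above Y ↔ z ∈ above Y := by
  refine ⟨fun hz => ?_, above_per_aux hY (by simp) fun x => (h x).1⟩
  simpa using above_per_aux hY (m := -(n : ℂ)) (by simp) (fun x hx => by simpa using (h _).2 hx) hz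

theorem frontier_subset_aux {S U : Set ℂ} (hU : IsOpen U) (h : ∀ x ∈ U, ∀ y ∈ U, x ∈ S → y ∈ S) {z : ℂ}
    (hz : z ∈ U) : z ∉ frontier S := fun hf => by
  obtain ⟨x, hx, hx'⟩ := mem_closure_iff.1 hf.1 U hU hz
  exact hf.2 (interior_maximal (fun y hy => h x hx y hy hx') hU hz)

theorem Comp.frontier_subset (h : Comp w) (s : ℝ) : frontier {z | s < w z} ⊆ strip := by
  refine fun z hz => ⟨not_lt.1 fun h0 => ?_, not_lt.1 fun h1 => ?_⟩
  · refine frontier_subset_aux (isOpen_lt Complex.continuous_im continuous_const) (fun x hx y hy hs => ?_) h0 hz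
    exact (show s < w x from hs).trans_eq ((h.bot x hx).trans (h.bot y hy).symm)
  · refine frontier_subset_aux (isOpen_lt continuous_const Complex.continuous_im) (fun x hx y hy hs => ?_) h1 hz
    exact (show s < w x from hs).trans_eq ((h.top x hx).trans (h.top y hy).symm)

theorem Comp.frontier_per (h : Comp w) (s : ℝ) (n : ℤ) (z : ℂ) :
    z + (n : ℂ) ∈ frontier {z | s < w z} ↔ z ∈ frontier {z | s < w z} := by
  have h1 := (Homeomorph.addRight (n : ℂ)).preimage_frontier {z | s < w z}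
  rw [show (Homeomorph.addRight (n : ℂ)) ⁻¹' {z | s < w z} = {z | s < w z} from
    Set.ext fun x => by simp [h.per_int]] at h1
  exact Set.ext_iff.1 h1 z

theorem Comp.long_frontier (h : Comp w) {s : ℝ} (h0 : 0 ≤ s) (h1 : s < 1) :
    Long (frontier {z | s < w z}) := by
  intro N
  obtain ⟨K, hK, hK', hKP, -, ⟨w0, -, e0, hk0⟩, ⟨w1, -, e1, hk1⟩⟩ :=
    R40.cross (fun z => ((N * (2 * z.im - 1) : ℝ) : ℂ) + ((3 * z.re - 1 : ℝ) : ℂ) * Complex.I) (by fun_prop)
      (P0 := closure {z | s < w z}ᶜ) (P1 := closure {z | s < w z}) isClosed_closure isClosed_closure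
      (fun z _ => by
        rw [← closure_union, compl_union_self, closure_univ]; trivial)
      (fun z _ hz hc => by
        obtain ⟨v, hv, hv'⟩ := mem_closure_iff.1 hc {v | v.im < 0}
          (isOpen_lt Complex.continuous_im continuous_const) (by simp [hz])
        have h2 : s < w v := hv'
        rw [h.bot v hv] at h2
        linarith)
      (fun z _ hz hc => by
        obtain ⟨v, hv, hv'⟩ := mem_closure_iff.1 hc {v | 1 < v.im}
          (isOpen_lt continuous_const Complex.continuous_im) (by simp [hz]; norm_num)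
        refine hv' ?_
        change s < w v
        rw [h.top v hv]
        exact h1)
  refine ⟨K, hK, hK', fun z hz => ?_, ⟨_, hk0, by simp [e0]⟩, ⟨_, hk1, by simp [e1]; linarith⟩⟩
  rw [frontier_eq_closure_inter_closure]
  exact ⟨(hKP hz).2, (hKP hz).1⟩

end Crest.Agent.R193
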