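import Crest.Agent.R193.FU.Min
import Crest.Agent.R193.FU.Sep

/-!
# R193/FU/Conj: periodic separation and the conjugate function

* `per_sep`: `Y = ⋃_{m : ℤ} (K + m n)` is closed (locally finite union, or: preimage description `{z | ∃ m, z - m n ∈ K}` and boundedness), in the strip, `n`-periodic, `Long` (finite unions
  `⋃_{|m| ≤ M}` are continua since `x + (m+1) n ∈ (K + m n) ∩ (K + (m+1) n)`).  `A = above Y`, `f z = (1/n) ∑_{a<n} 1_A (z + a)` is a competitor,
  `osc f (c i) ≤ (1/n) #{a < n | c i + a cut by A}`; such a tile `(i,a)` meets `K + m n`, so `(i, a - m n) ∈ hits K`, and these lifts are distinct for distinct `a < n`.  `Ext.var`, `sum_le_len`.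
* `exists_conj`: `D a b = sInf {len K | Cn K, a, b ∈ K}` (segments), symmetric, triangle inequality (`len_union_le`), translation invariant, `n I ≤ D x (x+n)`;
  `u z = ⨅ n : ℤ, D (-n) z - n I`, bounded below by `- D 0 z`; `u a ≤ u b + D a b`; reindex for periodicity.
-/

set_option autoImplicit false
open Set Metric Filter Topology MeasureTheory

namespace Crest.Agent.R193

variable {ι : Type} [Fintype ι] {c : ι → Set ℂ} {N₀ : ℕ} {w u : ℂ → ℝ} {η : ℝ}

theorem Ext.per_sep (T : Tiling c N₀) (h : Ext c w) {K : Set ℂ} (hK : Cn K) {x : ℂ} {n : ℕ}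
    (hx : x ∈ K) (hn : x + (n : ℂ) ∈ K) : n * II c w ≤ len c w K := by
  classical
  rcases Nat.eq_zero_or_pos n with rfl | hn0
  · simpa using len_nonneg K
  have hn0' : (0 : ℝ) < n := by exact_mod_cast hn0
  have hnC : (n : ℂ) ≠ 0 := by exact_mod_cast hn0.ne'
  set Y : Set ℂ := {z | ∃ m : ℤ, z - m * n ∈ K} with hY
  have hYs : Y ⊆ strip := fun z ⟨m, hm⟩ => by simpa [strip] using hK.sub hm
  have hYc : IsClosed Y := by
    have h1 := ((Homeomorph.mulRight₀ (n : ℂ) hnC).isClosedMap _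
      Complex.isClosed_range_intCast).add_left_of_isCompact hK.cpt
    convert h1 using 1
    ext z
    constructor
    · rintro ⟨m, hm⟩
      exact ⟨_, hm, _, ⟨_, ⟨m, rfl⟩, rfl⟩, by simp⟩
    · rintro ⟨a, ha, _, ⟨_, ⟨m, rfl⟩, rfl⟩, rfl⟩
      exact ⟨m, by simpa using ha⟩
  have htr : ∀ m : ℤ, (fun z => z + ((m * n : ℤ) : ℂ)) '' K ⊆ Y := by
    rintro m _ ⟨z, hz, rfl⟩
    exact ⟨m, by simpa using hz⟩
  have hlong : ∀ M : ℕ, ∃ K', Cn K' ∧ K' ⊆ Y ∧ x - M * n ∈ K' ∧ x + M * n ∈ K' := fun M => by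
    induction M with
    | zero => exact ⟨K, hK, fun z hz => ⟨0, by simpa using hz⟩, by simpa using hx, by simpa using hx⟩
    | succ M ih =>
      obtain ⟨K', h1, h2, h3, h4⟩ := ih
      refine ⟨(K' ∪ (fun z => z + (((M : ℤ) * n : ℤ) : ℂ)) '' K) ∪
        (fun z => z + (((-(M + 1) : ℤ) * n : ℤ) : ℂ)) '' K,
        (h1.union (hK.translate _) ⟨_, h4, x, hx, by push_cast; ring⟩).union (hK.translate _)
          ⟨_, Or.inl h3, _, hn, by push_cast; ring⟩,
        union_subset (union_subset h2 (htr _)) (htr _), Or.inr ⟨x, hx, by push_cast; ring⟩,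
        Or.inl (Or.inr ⟨_, hn, by push_cast; ring⟩)⟩
  have hsep : Separ Y := Long.separ (fun N => by
    obtain ⟨M, hM⟩ := exists_nat_ge (N + |x.re|)
    obtain ⟨K', h1, h2, h3, h4⟩ := hlong M
    have h5 : (M : ℝ) ≤ M * n := le_mul_of_one_le_right (Nat.cast_nonneg M) (by exact_mod_cast hn0)
    refine ⟨K', h1.cpt, h1.conn, h2, ⟨_, h3, ?_⟩, _, h4, ?_⟩
    · simp; linarith [le_abs_self x.re]
    · simp; linarith [neg_abs_le x.re]) hYs
  have hAper : ∀ z, z + (n : ℂ) ∈ above Y ↔ z ∈ above Y := fun z => by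
    have := above_per hYs (n := (n : ℤ)) (fun z => ⟨fun ⟨m, hm⟩ => ⟨m - 1, by
      convert hm using 1; push_cast; ring⟩, fun ⟨m, hm⟩ => ⟨m + 1, by
      convert hm using 1; push_cast; ring⟩⟩) z
    simpa using this
  set g : ℂ → ℝ := fun z => if z ∈ above Y then 1 else 0 with hg
  have hg0 : ∀ z, 0 ≤ g z := fun z => by simp only [hg]; split_ifs <;> norm_num
  have hg1 : ∀ z, g z ≤ 1 := fun z => by simp only [hg]; split_ifs <;> norm_num
  set f : ℂ → ℝ := fun z => (∑ a ∈ Finset.range n, g (z + a)) / n with hf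
  have hfc : Comp f := by
    refine ⟨fun z => ?_, fun z => ⟨div_nonneg (Finset.sum_nonneg fun _ _ => hg0 _) hn0'.le, ?_⟩,
      fun z hz => ?_, fun z hz => ?_⟩
    · have h1 := Finset.sum_range_succ' (fun a : ℕ => g (z + a)) n
      have h2 := Finset.sum_range_succ (fun a : ℕ => g (z + a)) n
      have h3 : g (z + n) = g z := by simp only [hg, hAper]
      have h4 : ∑ a ∈ Finset.range n, g (z + 1 + a) =
          ∑ a ∈ Finset.range n, g (z + ((a + 1 : ℕ) : ℂ)) :=
        Finset.sum_congr rfl fun a _ => by congr 1; push_cast; ring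
      simp only [hf]
      rw [h4]
      simp only [Nat.cast_zero, add_zero] at h1
      congr 1
      linarith
    · rw [div_le_one hn0']
      simpa using Finset.sum_le_card_nsmul (Finset.range n) _ 1 fun a _ => hg1 (z + a)
    · simp only [hf]
      rw [Finset.sum_eq_zero fun a _ => if_neg (above_bot hYs hYc hsep (by simpa using hz)), zero_div]
    · simp only [hf]
      rw [Finset.sum_congr rfl fun a _ => if_pos (above_top hYs (by simpa using hz))]
      simp [hn0'.ne']
  let P : ι × ℕ → Prop := fun y =>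
    (∃ p ∈ c y.1, p + y.2 ∈ above Y) ∧ ∃ q ∈ c y.1, q + y.2 ∉ above Y
  have hosc : ∀ i, osc f (c i) ≤ (∑ a ∈ Finset.range n, if P (i, a) then (1 : ℝ) else 0) / n :=
    fun i => osc_le (div_nonneg (Finset.sum_nonneg fun a _ => by split_ifs <;> norm_num) hn0'.le)
      fun p hp q hq => by
      simp only [hf]
      rw [← sub_div, ← Finset.sum_sub_distrib]
      refine div_le_div_of_nonneg_right (Finset.sum_le_sum fun a _ => ?_) hn0'.le
      split_ifs with hP
      · linarith [hg1 (p + a), hg0 (q + a)]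
      · by_cases h1 : p + a ∈ above Y
        · have h2 : q + a ∈ above Y := by
            by_contra h2
            exact hP ⟨⟨p, hp, h1⟩, q, hq, h2⟩
          simp [hg, h1, h2]
        · have : g (p + a) = 0 := if_neg h1
          linarith [hg0 (q + a)]
  have hhit : ∀ y, P y → ∃ m : ℤ, (y.1, (y.2 : ℤ) - m * n) ∈ hits c K :=
    fun y ⟨⟨p, hp, hp'⟩, q, hq, hq'⟩ => by
    obtain ⟨z, hz, m, hm⟩ := above_cut (T.tile_conn (y.1, (y.2 : ℤ)))
      ⟨_, by simpa [tile] using hp, hp'⟩ ⟨_, by simpa [tile] using hq, hq'⟩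
    refine ⟨m, _, ?_, hm⟩
    have : z - m * n - (((y.2 : ℤ) - m * n : ℤ) : ℂ) = z - ((y.2 : ℤ) : ℂ) := by push_cast; ring
    change z - m * n - (((y.2 : ℤ) - m * n : ℤ) : ℂ) ∈ c y.1
    rw [this]
    exact hz
  choose! μ hμ using hhit
  set U := (Finset.univ ×ˢ Finset.range n).filter P with hU
  have h1 := T.sum_le_len (w := w) hK.cpt.isBounded (U.image fun y => (y.1, (y.2 : ℤ) - μ y * n))
    fun p hp => by
      obtain ⟨y, hy, rfl⟩ := Finset.mem_image.1 hp
      exact hμ y (Finset.mem_filter.1 hy).2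
  rw [Finset.sum_image fun y hy y' hy' e => by
    have a1 := Finset.mem_range.1 (Finset.mem_product.1 (Finset.mem_filter.1 hy).1).2
    have a2 := Finset.mem_range.1 (Finset.mem_product.1 (Finset.mem_filter.1 hy').1).2
    obtain ⟨e1, e2⟩ := Prod.ext_iff.1 e
    refine Prod.ext e1 ?_
    simp only at e2
    have a3 : ((y.2 : ℤ)) % n = ((y'.2 : ℤ)) % n := by
      rw [← Int.sub_mul_emod_self_right (y.2 : ℤ) (μ y) n, e2, Int.sub_mul_emod_self_right]
    rw [Int.emod_eq_of_lt (by omega) (by omega), Int.emod_eq_of_lt (by omega) (by omega)] at a3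
    exact_mod_cast a3, hU, Finset.sum_filter, Finset.sum_product] at h1
  refine le_trans ?_ h1
  have h2 := (h.var f hfc).trans (Finset.sum_le_sum fun i _ =>
    mul_le_mul_of_nonneg_left (hosc i) (osc_nonneg w (c i)))
  rw [mul_comm, ← le_div_iff₀ hn0', Finset.sum_div]
  refine h2.trans (le_of_eq (Finset.sum_congr rfl fun i _ => ?_))
  rw [← mul_div_assoc, Finset.mul_sum]
  congr 1
  exact Finset.sum_congr rfl fun a _ => by split_ifs <;> simp [rho]

theorem Ext.exists_conj (T : Tiling c N₀) (h : Ext c w) : ∃ u : ℂ → ℝ, Conj c w u := by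
  let D : ℂ → ℂ → ℝ := fun a b => sInf {l | ∃ K, Cn K ∧ a ∈ K ∧ b ∈ K ∧ l = len c w K}
  have hle : ∀ K, Cn K → ∀ a ∈ K, ∀ b ∈ K, D a b ≤ len c w K := fun K hK a ha b hb =>
    csInf_le ⟨0, fun l ⟨K, _, _, _, e⟩ => e ▸ len_nonneg K⟩ ⟨K, hK, ha, hb, rfl⟩
  have hge : ∀ a ∈ strip, ∀ b ∈ strip, ∀ t, (∀ K, Cn K → a ∈ K → b ∈ K → t ≤ len c w K) →
      t ≤ D a b := fun a ha b hb t ht =>
    le_csInf ⟨_, _, Cn.segment ha hb, left_mem_segment _ _ _, right_mem_segment _ _ _, rfl⟩
      fun l ⟨K, h1, h2, h3, e⟩ => e ▸ ht K h1 h2 h3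
  have htri : ∀ a ∈ strip, ∀ K, Cn K → ∀ b ∈ K, ∀ z ∈ K, D a z ≤ D a b + len c w K :=
    fun a ha K hK b hb z hz => by
    have := hge a ha b (hK.sub hb) (D a z - len c w K) fun K' h1 h2 h3 => by
      have a1 := hle _ (h1.union hK ⟨b, h3, hb⟩) a (Or.inl h2) z (Or.inr hz)
      have a2 := T.len_union_le (w := w) h1.cpt.isBounded hK.cpt.isBounded
      linarith
    linarith
  have hst : ∀ a ∈ strip, ∀ n : ℤ, a + n ∈ strip := fun a ha n => by simpa [strip] using ha
  have htr' : ∀ a ∈ strip, ∀ b ∈ strip, ∀ n : ℤ, D (a + n) (b + n) ≤ D a b := fun a ha b hb n =>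
    hge a ha b hb _ fun K h1 h2 h3 => (hle _ (h1.translate n) _ (mem_image_of_mem _ h2) _
      (mem_image_of_mem _ h3)).trans_eq (len_translate K n)
  have htr : ∀ a ∈ strip, ∀ b ∈ strip, ∀ n : ℤ, D (a + n) (b + n) = D a b := fun a ha b hb n =>
    le_antisymm (htr' a ha b hb n) (by
      simpa using htr' _ (hst a ha n) _ (hst b hb n) (-n))
  have hneg : ∀ n : ℤ, (-(n : ℂ)) ∈ strip := fun n => by simp [strip]
  have h0 : (0 : ℂ) ∈ strip := by simp [strip]
  have hI := (h.II_pos T).le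
  have hbb : ∀ z ∈ strip, BddBelow (range fun n : ℤ => D (-n) z - n * II c w) := fun z hz => by
    refine ⟨-len c w (segment ℝ z 0), ?_⟩
    rintro _ ⟨n, rfl⟩
    have a0 := len_nonneg (c := c) (w := w) (segment ℝ z 0)
    rcases le_total 0 n with hn | hn
    · lift n to ℕ using hn
      have a1 := htri _ (hneg n) _ (Cn.segment hz h0) z (left_mem_segment _ _ _) 0
        (right_mem_segment _ _ _)
      have a2 := hge _ (hneg n) 0 h0 (n * II c w) fun K h1 h2 h3 =>
        h.per_sep T h1 h2 (by simpa using h3)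
      simp only [Int.cast_natCast] at a1 a2 ⊢
      linarith
    · have a1 := hge _ (hneg n) z hz 0 fun K _ _ _ => len_nonneg K
      have a2 : (n : ℝ) ≤ 0 := by exact_mod_cast hn
      simp only
      nlinarith
  have hlip : ∀ K, Cn K → ∀ a ∈ K, ∀ b ∈ K, (⨅ n : ℤ, D (-n) a - n * II c w) - len c w K ≤
      ⨅ n : ℤ, D (-n) b - n * II c w := fun K hK a ha b hb => le_ciInf fun n => by
    linarith [ciInf_le (hbb a (hK.sub ha)) n, htri _ (hneg n) K hK b hb a ha]
  refine ⟨fun z => ⨅ n : ℤ, D (-n) z - n * II c w, fun z hz => ?_, fun K hK a ha b hb =>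
    abs_le.2 ⟨by linarith [hlip K hK b hb a ha], by linarith [hlip K hK a ha b hb]⟩⟩
  have hz1 : z + 1 ∈ strip := by simpa using hst z hz 1
  have key : ∀ n : ℤ, D (-n) (z + 1) = D (-((n + 1 : ℤ) : ℂ)) z := fun n => by
    rw [← htr _ (hneg (n + 1)) z hz 1]
    congr 1
    · push_cast; ring
    · simp
  have a1 : (⨅ n : ℤ, D (-n) (z + 1) - n * II c w) - II c w ≤ ⨅ n : ℤ, D (-n) z - n * II c w :=
    le_ciInf fun n => by
      have := ciInf_le (hbb _ hz1) (n - 1)
      simp only [key, sub_add_cancel] at this ⊢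
      push_cast at this ⊢
      linarith
  have a2 : (⨅ n : ℤ, D (-n) z - n * II c w) + II c w ≤ ⨅ n : ℤ, D (-n) (z + 1) - n * II c w :=
    le_ciInf fun n => by
      have := ciInf_le (hbb _ hz) (n + 1)
      rw [key]
      push_cast at this ⊢
      linarith
  linarith

end Crest.Agent.R193
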