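import Crest.Agent.R193.C.Cont
import Crest.Agent.R40.TCross

/-!
# R193/FU/Defs: definitions for the finite Riemann mapping theorem (FROZEN; notes193/R193.md, section FU)
-/

set_option autoImplicit false
open Set Metric Filter Topology MeasureTheory

namespace Crest.Agent.R193

/-- competitors -/
structure Comp (f : ℂ → ℝ) : Prop where
  per : ∀ z, f (z + 1) = f z
  mem : ∀ z, f z ∈ Icc (0 : ℝ) 1
  bot : ∀ z : ℂ, z.im < 0 → f z = 0
  top : ∀ z : ℂ, 1 < z.im → f z = 1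

variable {ι : Type}

/-- energy -/
noncomputable def II [Fintype ι] (c : ι → Set ℂ) (w : ℂ → ℝ) : ℝ := ∑ i, osc w (c i) ^ 2

/-- extremal function (first variation) -/
structure Ext [Fintype ι] (c : ι → Set ℂ) (w : ℂ → ℝ) : Prop extends Comp w where
  var : ∀ f, Comp f → II c w ≤ ∑ i, osc w (c i) * osc f (c i)

open Classical in
/-- total weight of the tiles cut by the level `s` -/
noncomputable def cutSum [Fintype ι] (c : ι → Set ℂ) (w : ℂ → ℝ) (s : ℝ) : ℝ :=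
  ∑ i ∈ Finset.univ.filter (fun i => Cut w (c i) s), osc w (c i)

/-- weight of a tile -/
noncomputable def rho (c : ι → Set ℂ) (w : ℂ → ℝ) (p : ι × ℤ) : ℝ := osc w (c p.1)

/-- tiles meeting `K` -/
def hits (c : ι → Set ℂ) (K : Set ℂ) : Set (ι × ℤ) := {p | (tile c p ∩ K).Nonempty}

/-- fat length -/
noncomputable def len (c : ι → Set ℂ) (w : ℂ → ℝ) (K : Set ℂ) : ℝ := ∑ᶠ p ∈ hits c K, rho c w p

/-- continua in the strip -/
structure Cn (K : Set ℂ) : Prop where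
  cpt : IsCompact K
  conn : IsPreconnected K
  sub : K ⊆ strip

/-- conjugate function -/
structure Conj [Fintype ι] (c : ι → Set ℂ) (w u : ℂ → ℝ) : Prop where
  per : ∀ z ∈ strip, u (z + 1) = u z + II c w
  lip : ∀ K, Cn K → ∀ a ∈ K, ∀ b ∈ K, |u a - u b| ≤ len c w K

/-- `Y` contains continua crossing `{|re| ≤ N}` for every `N` -/
def Long (Y : Set ℂ) : Prop := ∀ N : ℝ, ∃ K : Set ℂ, IsCompact K ∧ IsPreconnected K ∧ K ⊆ Y ∧
  (∃ a ∈ K, a.re ≤ -N) ∧ ∃ b ∈ K, N ≤ b.re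

/-- `Y` meets every continuum from above the strip to below the strip -/
def Separ (Y : Set ℂ) : Prop := ∀ L : Set ℂ, IsCompact L → IsPreconnected L →
  (∃ p ∈ L, 1 < p.im) → (∃ q ∈ L, q.im < 0) → (L ∩ Y).Nonempty

/-- the region above `Y` -/
def above (Y : Set ℂ) : Set ℂ := connectedComponentIn Yᶜ (2 * Complex.I)

/-- standing hypotheses -/
structure Ctx [Fintype ι] (c : ι → Set ℂ) (N₀ : ℕ) (w u : ℂ → ℝ) (η : ℝ) : Prop where
  til : Tiling c N₀
  ext : Ext c w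
  conj : Conj c w u
  le_η : ∀ i, osc w (c i) ≤ η

/-- standing hypotheses of the fine part -/
structure Ctx2 [Fintype ι] (c : ι → Set ℂ) (N₀ : ℕ) (w u : ℂ → ℝ) (η : ℝ) : Prop
    extends Ctx c N₀ w u η where
  small : 30 * (N₀ * η) ≤ 1 / 16
  hin : ∀ i, (∃ a ∈ c i, w a ≤ 7 / 8) → (∃ b ∈ c i, 1 / 8 ≤ w b) → c i ⊆ strip

/-- good middle levels -/
def Gd [Fintype ι] (c : ι → Set ℂ) (w : ℂ → ℝ) (s : ℝ) : Prop :=
  1 / 8 ≤ s ∧ s ≤ 7 / 8 ∧ cutSum c w s = II c w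

end Crest.Agent.R193
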