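import Crest.Agent.R193.FU.HConn

/-!
# R193/FU/Esc: escape and connection (`μ = N₀ η`)

* `escW`: `near`, a path in the tile, a continuum of `goodLevel` of extent `2N`.
* `escU`: `near`, `wall` at `α = u y`; `w ≤ η` at its bottom point and `≥ 1 - η` at its top point (a tile there contains points outside the strip), so it meets the level set (`Cut.inter_frontier`) in a cut tile
  (`exists_cut`); `hconn` with the window `[α - μ, α + μ]`.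
* `conn`: `near` at `x` and `z` (levels `s_x, s_z`), wall `V` at `u x`, `subcont` of `V` with `closure (w⁻¹ Iic lo)`, `closure (w⁻¹ Icc lo hi)`, `closure (w⁻¹ Ici hi)`, `lo = min - 2η`, `hi = max + 2η`
  (`w_closure`); it is cut by `s_x` and `s_z`; `hconn` at `s_x` (window `u x ± μ`) and at `s_z` (window `[min (u x) (u z) - μ, max + μ]`).
-/

set_option autoImplicit false
open Set Metric Filter Topology MeasureTheory

namespace Crest.Agent.R193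

variable {ι : Type} [Fintype ι] {c : ι → Set ℂ} {N₀ : ℕ} {w u : ℂ → ℝ} {η : ℝ}

theorem Ctx.w_bot (h : Ctx c N₀ w u η) {a : ℂ} (ha : a.im = 0) : w a ≤ η := by
  obtain ⟨q, hq⟩ := h.til.cover a ⟨ha.ge, by linarith⟩
  obtain ⟨ε, hε, hb⟩ := Metric.isOpen_iff.1 (h.til.tile_open q) a hq
  have h1 := h.w_tile hq (hb (a := a - ((ε / 2 : ℝ) : ℂ) * Complex.I) (by
    simp [abs_of_pos hε]; linarith))
  rw [h.ext.bot (a - ((ε / 2 : ℝ) : ℂ) * Complex.I) (by simp; linarith), sub_zero] at h1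
  exact (le_abs_self _).trans h1

theorem Ctx.w_top (h : Ctx c N₀ w u η) {a : ℂ} (ha : a.im = 1) : 1 - η ≤ w a := by
  obtain ⟨q, hq⟩ := h.til.cover a ⟨by linarith, ha.le⟩
  obtain ⟨ε, hε, hb⟩ := Metric.isOpen_iff.1 (h.til.tile_open q) a hq
  have h1 := h.w_tile hq (hb (a := a + ((ε / 2 : ℝ) : ℂ) * Complex.I) (by
    simp [abs_of_pos hε]; linarith))
  rw [h.ext.top (a + ((ε / 2 : ℝ) : ℂ) * Complex.I) (by simp; linarith)] at h1
  linarith [(abs_le.1 h1).1]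

theorem Ctx2.escW (h : Ctx2 c N₀ w u η) {y : ℂ} (hy : w y ∈ Icc (3 / 8 : ℝ) (5 / 8)) (N : ℝ) :
    ∃ F : Set ℂ, Cn F ∧ y ∈ F ∧ (∃ b ∈ F, N ≤ |b.re - y.re|) ∧
      ∀ z ∈ F, |w z - w y| ≤ 3 * (N₀ * η) := by
  have hle := h.η_le
  have hη := h.η_pos
  obtain ⟨K, s, p, z, k1, k2, k3, k4, hs, hp, k5, k6⟩ := h.near hy
  obtain ⟨L, l1, l2, l3, ⟨y₁, hy₁L, hy₁p⟩, a, ha, b, hb, hab⟩ :=
    h.ext.goodLevel h.til (by linarith [hs.1]) (by linarith [hs.2.1]) hs.2.2 p hp.1 hp.2 (2 * N)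
  obtain ⟨K₀, m1, m2, m3, m4⟩ := h.path hs hp k4 hy₁p
  have key : ∀ x, |w x - s| ≤ η → |w x - w y| ≤ 3 * (N₀ * η) := fun x hx =>
    abs_le.2 ⟨by linarith [(abs_le.1 hx).1, (abs_le.1 k5).1],
      by linarith [(abs_le.1 hx).2, (abs_le.1 k5).2]⟩
  refine ⟨(K ∪ K₀) ∪ L, (k1.union m1 ⟨z, k3, m2⟩).union
    ⟨l1, l2, l3.trans (h.ext.toComp.frontier_subset s)⟩ ⟨y₁, Or.inr m3, hy₁L⟩,
    Or.inl (Or.inl k2), ?_, ?_⟩
  · rcases le_total N (b.re - y.re) with e | e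
    · exact ⟨b, Or.inr hb, e.trans (le_abs_self _)⟩
    · exact ⟨a, Or.inr ha, le_trans (by linarith) (neg_le_abs _)⟩
  · rintro x ((hx | hx) | hx)
    · linarith [(k6 x hx).2]
    · exact key x (m4 x hx).2
    · exact key x (h.exists_cut (l3 hx)).1

theorem Ctx2.escU (h : Ctx2 c N₀ w u η) {y : ℂ} (hy : w y ∈ Icc (3 / 8 : ℝ) (5 / 8)) :
    ∃ F : Set ℂ, Cn F ∧ y ∈ F ∧ (∃ b ∈ F, b.im = 0) ∧ ∀ z ∈ F, |u z - u y| ≤ 14 * (N₀ * η) := by
  have hle := h.η_le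
  have hη := h.η_pos
  have hsm := h.small
  obtain ⟨K, s, p, z, k1, k2, k3, k4, hs, hp, -, k6⟩ := h.near hy
  obtain ⟨V, v1, ⟨a, ha, ha'⟩, ⟨b, hb, hb'⟩, v2⟩ := h.wall (u y)
  obtain ⟨x, x1, x2⟩ := Cut.inter_frontier (v := w) (s := s)
    ⟨⟨a, ha, by linarith [h.w_bot ha', hs.1]⟩, b, hb, by linarith [h.w_top hb', hs.2.1]⟩ v1.conn
  obtain ⟨-, q, q1, q2⟩ := h.exists_cut x2
  obtain ⟨E, e1, e2, e3, e4⟩ := h.hconn hs (α := u y - N₀ * η) (β := u y + N₀ * η) (by linarith)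
    hp q2 k4 q1 ⟨by linarith [(abs_le.1 (k6 z k3).1).1], by linarith [(abs_le.1 (k6 z k3).1).2]⟩
    ⟨by linarith [(abs_le.1 (v2 x x1)).1], by linarith [(abs_le.1 (v2 x x1)).2]⟩
  refine ⟨(K ∪ E) ∪ V, (k1.union e1 ⟨z, k3, e2⟩).union v1 ⟨x, Or.inr e3, x1⟩, Or.inl (Or.inl k2),
    ⟨a, Or.inr ha, ha'⟩, ?_⟩
  rintro x ((hx | hx) | hx)
  · linarith [(k6 x hx).1]
  · exact abs_le.2 ⟨by linarith [(e4 x hx).1.1], by linarith [(e4 x hx).1.2]⟩
  · linarith [v2 x hx]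

theorem Ctx2.conn (h : Ctx2 c N₀ w u η) {x z : ℂ} (hx : w x ∈ Icc (3 / 8 : ℝ) (5 / 8))
    (hz : w z ∈ Icc (3 / 8 : ℝ) (5 / 8)) : ∃ E : Set ℂ, Cn E ∧ x ∈ E ∧ z ∈ E ∧
      ∀ y ∈ E, |u y - u x| ≤ |u z - u x| + 14 * (N₀ * η) ∧
        |w y - w x| ≤ |w z - w x| + 5 * (N₀ * η) := by
  have hle := h.η_le
  have hη := h.η_pos
  have hsm := h.small
  obtain ⟨K, s, p, x', k1, k2, k3, k4, hs, hp, k5, k6⟩ := h.near hx
  obtain ⟨K', s', p', z', j1, j2, j3, j4, hs', hp', j5, j6⟩ := h.near hz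
  obtain ⟨V, v1, ⟨a, ha, ha'⟩, ⟨b, hb, hb'⟩, v2⟩ := h.wall (u x)
  have m1 := min_le_left s s'
  have m2 := min_le_right s s'
  have m3 := le_max_left s s'
  have m4 := le_max_right s s'
  have m5 : 1 / 8 ≤ min s s' := le_min hs.1 hs'.1
  have m6 : max s s' ≤ 7 / 8 := max_le hs.2.1 hs'.2.1
  have hA : ∀ y ∈ V, y ∈ closure (w ⁻¹' Iic (min s s' - 2 * η)) → w y ≤ min s s' - η :=
    fun y hy hy' => by
    obtain ⟨t, ht, ht'⟩ := h.w_closure (v1.sub hy) hy'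
    linarith [(abs_le.1 ht').2, mem_Iic.1 ht]
  have hB : ∀ y ∈ V, y ∈ closure (w ⁻¹' Ici (max s s' + 2 * η)) → max s s' + η ≤ w y :=
    fun y hy hy' => by
    obtain ⟨t, ht, ht'⟩ := h.w_closure (v1.sub hy) hy'
    linarith [(abs_le.1 ht').1, mem_Ici.1 ht]
  obtain ⟨V', b1, b2, b3, ⟨a₁, a1, a1'⟩, a₂, a2, a2'⟩ := subcont
    (A := closure (w ⁻¹' Iic (min s s' - 2 * η)))
    (M := closure (w ⁻¹' Icc (min s s' - 2 * η) (max s s' + 2 * η)))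
    (B := closure (w ⁻¹' Ici (max s s' + 2 * η))) v1.cpt v1.conn
    isClosed_closure isClosed_closure isClosed_closure (fun y _ => by
      rcases le_total (w y) (min s s' - 2 * η) with a1 | a1
      · exact Or.inl (Or.inl (subset_closure a1))
      · rcases le_total (w y) (max s s' + 2 * η) with a2 | a2
        · exact Or.inl (Or.inr (subset_closure ⟨a1, a2⟩))
        · exact Or.inr (subset_closure a2))
    (eq_empty_of_forall_notMem fun y hy => by linarith [hA y hy.1.1 hy.1.2, hB y hy.1.1 hy.2])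
    ⟨a, ha, subset_closure (show w a ≤ _ by linarith [h.w_bot ha'])⟩
    ⟨b, hb, subset_closure (show _ ≤ w b by linarith [h.w_top hb'])⟩
  have hV' : Cn V' := ⟨b1, b2, fun y hy => v1.sub (b3 hy).1⟩
  have c1 := hA a₁ (b3 a1).1 a1'
  have c2 := hB a₂ (b3 a2).1 a2'
  obtain ⟨y₁, y1, y1'⟩ := Cut.inter_frontier (v := w) (s := s)
    ⟨⟨a₁, a1, by linarith⟩, a₂, a2, by linarith⟩ b2
  obtain ⟨y₂, y2, y2'⟩ := Cut.inter_frontier (v := w) (s := s')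
    ⟨⟨a₁, a1, by linarith⟩, a₂, a2, by linarith⟩ b2
  obtain ⟨-, q, q1, q2⟩ := h.exists_cut y1'
  obtain ⟨-, q', q1', q2'⟩ := h.exists_cut y2'
  have d1 := abs_le.1 (v2 y₁ (b3 y1).1)
  have d2 := abs_le.1 (v2 y₂ (b3 y2).1)
  have d3 := abs_le.1 (k6 x' k3).1
  have d4 := abs_le.1 (j6 z' j3).1
  have d5 := abs_le.1 k5
  have d6 := abs_le.1 j5
  have u1 := le_abs_self (u z - u x)
  have u2 := neg_abs_le (u z - u x)
  have w1 := le_abs_self (w z - w x)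
  have w2 := neg_abs_le (w z - w x)
  have u0 := abs_nonneg (u z - u x)
  have w0 := abs_nonneg (w z - w x)
  obtain ⟨E, e1, e2, e3, e4⟩ := h.hconn hs (α := u x - N₀ * η) (β := u x + N₀ * η) (by linarith)
    hp q2 k4 q1 ⟨by linarith [d3.1], by linarith [d3.2]⟩ ⟨by linarith [d1.1], by linarith [d1.2]⟩
  obtain ⟨E', f1, f2, f3, f4⟩ := h.hconn hs' (α := u x - |u z - u x| - N₀ * η)
    (β := u x + |u z - u x| + N₀ * η) (by linarith) hp' q2' j4 q1'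
    ⟨by linarith [d4.1], by linarith [d4.2]⟩ ⟨by linarith [d2.1], by linarith [d2.2]⟩
  refine ⟨(((K ∪ E) ∪ V') ∪ E') ∪ K', (((k1.union e1 ⟨x', k3, e2⟩).union hV'
    ⟨y₁, Or.inr e3, y1⟩).union f1 ⟨y₂, Or.inr y2, f3⟩).union j1 ⟨z', Or.inr f2, j3⟩,
    Or.inl (Or.inl (Or.inl (Or.inl k2))), Or.inr j2, ?_⟩
  rintro y ((((hy | hy) | hy) | hy) | hy)
  · exact ⟨by linarith [(k6 y hy).1], by linarith [(k6 y hy).2]⟩
  · have g := abs_le.1 (e4 y hy).2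
    exact ⟨abs_le.2 ⟨by linarith [(e4 y hy).1.1], by linarith [(e4 y hy).1.2]⟩,
      abs_le.2 ⟨by linarith [g.1, d5.1], by linarith [g.2, d5.2]⟩⟩
  · obtain ⟨t, ht, ht'⟩ := h.w_closure (hV'.sub hy) (b3 hy).2
    have g := abs_le.1 ht'
    have g1 : w x - |w z - w x| - 2 * (N₀ * η) ≤ min s s' :=
      le_min (by linarith [d5.1]) (by linarith [d6.1])
    have g2 : max s s' ≤ w x + |w z - w x| + 2 * (N₀ * η) :=
      max_le (by linarith [d5.2]) (by linarith [d6.2])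
    exact ⟨by linarith [v2 y (b3 hy).1],
      abs_le.2 ⟨by linarith [g.1, ht.1], by linarith [g.2, ht.2]⟩⟩
  · have g := abs_le.1 (f4 y hy).2
    exact ⟨abs_le.2 ⟨by linarith [(f4 y hy).1.1], by linarith [(f4 y hy).1.2]⟩,
      abs_le.2 ⟨by linarith [g.1, d6.1], by linarith [g.2, d6.2]⟩⟩
  · have g1 := abs_le.1 (j6 y hy).1
    have g2 := abs_le.1 (j6 y hy).2
    exact ⟨abs_le.2 ⟨by linarith [g1.1], by linarith [g1.2]⟩,
      abs_le.2 ⟨by linarith [g2.1], by linarith [g2.2]⟩⟩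

end Crest.Agent.R193
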