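import Crest.Agent.R193.FU.Min
import Crest.Agent.R193.FU.Sep

/-!
# R193/FU/Good: good levels

`core X` = points of `X` on continua of `X` of arbitrarily large horizontal extent.
* `piece`: for `y ∈ X \ core X`, some `N`, `cut_wire` in `X ∩ {|re - re y| ≤ N}` (compact: `X ⊆ strip` closed) with `A = {y}`, `B = {|re - re y| = N}` gives `X₁ ∋ y` compact, `X \ X₁` closed.
  A preconnected subset of `X` meeting `X₁` lies in `X₁`.
* `isClosed_core`: `(X \ X₁)ᶜ` is a neighbourhood of `y` missing `core X`.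
* `separ_core`: `L` meets the long continua `K_N` at `y_N` (`cross_meet`), a limit point `y ∈ L ∩ X`; if `y ∉ core X` then `y_N ∈ X₁` for large `N` along the subsequence, so `K_N ⊆ X₁`, which is bounded.
* `goodLevel`: `X = frontier {s < w}`, `A = above (core X)`, `le_sum_of_set` with `S = {i | c i meets core X}` ⊆ cut indices (`cut_of_frontier`); equality of the sums and `Cut.osc_pos` give `S` = all cut indices; periodicity.
-/

set_option autoImplicit false
open Set Metric Filter Topology MeasureTheory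

namespace Crest.Agent.R193

variable {ι : Type} [Fintype ι] {c : ι → Set ℂ} {N₀ : ℕ} {w u : ℂ → ℝ} {η : ℝ}

/-- points on arbitrarily long continua -/
def core (X : Set ℂ) : Set ℂ := {y | ∀ N : ℝ, ∃ H : Set ℂ, IsCompact H ∧ IsPreconnected H ∧
  H ⊆ X ∧ y ∈ H ∧ ∃ a ∈ H, ∃ b ∈ H, N ≤ b.re - a.re}

theorem isPreconnected_iff_subset_of_fully_disjoint_closed' {H A B : Set ℂ}
    (hH : IsPreconnected H) (hA : IsClosed A) (hB : IsClosed B) (hc : H ⊆ A ∪ B)
    (hd : Disjoint A B) : H ⊆ A ∨ H ⊆ B :=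
  isPreconnected_iff_subset_of_disjoint_closed.1 hH A B hA hB hc
    (by rw [hd.inter_eq, inter_empty])

theorem core_subset (X : Set ℂ) : core X ⊆ X := fun _ hy =>
  let ⟨_, _, _, h1, h2, _⟩ := hy 0
  h1 h2

theorem not_long {X₁ : Set ℂ} (h : IsCompact X₁) :
    ∃ N : ℝ, ∀ a ∈ X₁, ∀ b ∈ X₁, b.re - a.re < N := by
  obtain ⟨R, hR⟩ := h.isBounded.exists_norm_le
  refine ⟨2 * R + 1, fun a ha b hb => ?_⟩
  have h1 := (Complex.abs_re_le_norm a).trans (hR a ha)
  have h2 := (Complex.abs_re_le_norm b).trans (hR b hb)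
  linarith [(abs_le.1 h1).1, (abs_le.1 h2).2]

theorem piece {X : Set ℂ} (hX : IsClosed X) (hs : X ⊆ strip) {y : ℂ} (hy : y ∈ X)
    (hn : y ∉ core X) : ∃ X₁ : Set ℂ, IsCompact X₁ ∧ X₁ ⊆ X ∧ y ∈ X₁ ∧ IsClosed (X \ X₁) ∧
      ∀ H : Set ℂ, IsPreconnected H → H ⊆ X → (H ∩ X₁).Nonempty → H ⊆ X₁ := by
  simp only [core, mem_ofPred_eq, not_forall] at hn
  obtain ⟨N₁, hN⟩ := hn
  set N := max N₁ 1 with hNd
  have hN1 : 1 ≤ N := le_max_right _ _
  have hcont : Continuous fun z : ℂ => |z.re - y.re| :=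
    (Complex.continuous_re.sub continuous_const).abs
  have hcl : IsClosed (X ∩ {z : ℂ | |z.re - y.re| ≤ N}) :=
    hX.inter (isClosed_le hcont continuous_const)
  have hcpt : IsCompact (X ∩ {z : ℂ | |z.re - y.re| ≤ N}) :=
    Metric.isCompact_of_isClosed_isBounded hcl
      ((isBounded_closedBall (x := (0 : ℂ)) (r := N + |y.re| + 1)).subset fun z hz => by
        have h1 := hs hz.1
        have h2 : |z.re - y.re| ≤ N := hz.2
        have h3 := Complex.norm_le_abs_re_add_abs_im z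
        rw [abs_of_nonneg h1.1] at h3
        rw [mem_closedBall_zero_iff]
        linarith [h1.2, abs_sub_abs_le_abs_sub z.re y.re])
  obtain ⟨X₁, X₂, h1, h2, h3, h4, h5, h6⟩ := cut_wire (A := {y})
    (B := {z : ℂ | |z.re - y.re| = N}) hcpt isClosed_singleton
    (isClosed_eq hcont continuous_const) fun C hC hC' ⟨a, ha, ha'⟩ ⟨b, hb, hb'⟩ => by
      rw [mem_singleton_iff.1 ha'] at ha
      have hsub := closure_minimal hC hcl
      refine hN ⟨closure C, hcpt.of_isClosed_subset isClosed_closure hsub, hC'.closure,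
        hsub.trans inter_subset_left, subset_closure ha, ?_⟩
      have hb2 : |b.re - y.re| = N := hb'
      have := le_max_left N₁ 1
      rcases abs_cases (b.re - y.re) with e | e
      · exact ⟨y, subset_closure ha, b, subset_closure hb, by linarith [e.1]⟩
      · exact ⟨b, subset_closure hb, y, subset_closure ha, by linarith [e.1]⟩
  have hX₁ : X₁ ⊆ X ∩ {z : ℂ | |z.re - y.re| ≤ N} := h4 ▸ subset_union_left
  have hX₂ : X₂ ⊆ X ∩ {z : ℂ | |z.re - y.re| ≤ N} := h4 ▸ subset_union_right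
  have hy1 : y ∈ X₁ := by
    have : y ∈ X₁ ∪ X₂ := h4 ▸ ⟨hy, by simp; linarith⟩
    exact this.resolve_right fun h => disjoint_left.1 h6 h rfl
  have hcl' : IsClosed (X \ X₁) := by
    have : X \ X₁ = X₂ ∪ (X ∩ {z : ℂ | N ≤ |z.re - y.re|}) := by
      ext z
      constructor
      · rintro ⟨a1, a2⟩
        rcases le_total |z.re - y.re| N with h | h
        · have : z ∈ X₁ ∪ X₂ := h4 ▸ ⟨a1, h⟩
          exact Or.inl (this.resolve_left a2)
        · exact Or.inr ⟨a1, h⟩
      · rintro (a | a)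
        · exact ⟨(hX₂ a).1, fun h => disjoint_left.1 h3 h a⟩
        · exact ⟨a.1, fun h => disjoint_left.1 h5 h (le_antisymm (hX₁ h).2 a.2)⟩
    rw [this]
    exact h2.isClosed.union (hX.inter (isClosed_le continuous_const hcont))
  refine ⟨X₁, h1, hX₁.trans inter_subset_left, hy1, hcl', fun H hH hHX hne => ?_⟩
  rcases (isPreconnected_iff_subset_of_fully_disjoint_closed' hH h1.isClosed hcl'
    (fun z hz => by by_cases h : z ∈ X₁; exacts [Or.inl h, Or.inr ⟨hHX hz, h⟩])
    disjoint_sdiff_right) with h | h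
  · exact h
  · obtain ⟨z, a1, a2⟩ := hne
    exact absurd a2 (h a1).2

theorem isClosed_core {X : Set ℂ} (hX : IsClosed X) (hs : X ⊆ strip) : IsClosed (core X) := by
  refine isClosed_of_closure_subset fun y hy => ?_
  by_contra hn
  obtain ⟨X₁, h1, -, h3, h4, h5⟩ := piece hX hs (closure_minimal (core_subset X) hX hy) hn
  obtain ⟨N, hN⟩ := not_long h1
  obtain ⟨z, hz1, hz2⟩ := mem_closure_iff.1 hy _ h4.isOpen_compl fun h => h.2 h3
  obtain ⟨H, -, a2, a3, a4, a, ha, b, hb, hab⟩ := hz2 N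
  have := h5 H a2 a3 ⟨z, a4, by_contra fun h => hz1 ⟨a3 a4, h⟩⟩
  linarith [hN a (this ha) b (this hb)]

theorem separ_core {X : Set ℂ} (hX : IsClosed X) (hs : X ⊆ strip) (hl : Long X) :
    Separ (core X) := by
  intro L hL hL' hp hq
  obtain ⟨R, hR⟩ := hL.isBounded.exists_norm_le
  choose K h1 h2 h3 h4 h5 using fun n : ℕ => hl (R + 1 + n)
  have hy : ∀ n, (K n ∩ L).Nonempty := fun n =>
    cross_meet ⟨h1 n, h2 n, (h3 n).trans hs⟩ (h4 n) (h5 n) hL hL' (fun z hz => by
      have a1 := abs_le.1 ((Complex.abs_re_le_norm z).trans (hR z hz))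
      have a2 : (0 : ℝ) ≤ n := Nat.cast_nonneg n
      exact ⟨by linarith [a1.1], by linarith [a1.2]⟩) hp hq
  choose y hy1 hy2 using hy
  obtain ⟨y₀, hy₀, φ, hφ, hlim⟩ := (hL.inter_right hX).tendsto_subseq (x := y)
    fun n => ⟨hy2 n, h3 n (hy1 n)⟩
  refine ⟨y₀, hy₀.1, by_contra fun hn => ?_⟩
  obtain ⟨X₁, a1, -, a3, a4, a5⟩ := piece hX hs hy₀.2 hn
  obtain ⟨N, hN⟩ := not_long a1
  obtain ⟨M, hM⟩ := exists_nat_ge N
  obtain ⟨n, b1, b2⟩ := ((hlim.eventually (a4.isOpen_compl.mem_nhds fun h => h.2 a3)).and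
    (hφ.tendsto_atTop.eventually (eventually_ge_atTop M))).exists
  have := a5 _ (h2 (φ n)) (h3 _) ⟨_, hy1 _, by_contra fun h => b1 ⟨h3 _ (hy1 _), h⟩⟩
  obtain ⟨a, ha, ha'⟩ := h4 (φ n)
  obtain ⟨b, hb, hb'⟩ := h5 (φ n)
  have c1 : (M : ℝ) ≤ φ n := by exact_mod_cast b2
  have c2 := (norm_nonneg _).trans (hR _ hy₀.1)
  have c3 : (0 : ℝ) ≤ M := Nat.cast_nonneg M
  linarith [hN a (this ha) b (this hb)]

theorem core_per {X : Set ℂ} (h : ∀ (n : ℤ) (z : ℂ), z + (n : ℂ) ∈ X ↔ z ∈ X) (n : ℤ) (z : ℂ) :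
    z + (n : ℂ) ∈ core X ↔ z ∈ core X := by
  have key : ∀ (n : ℤ) (z : ℂ), z ∈ core X → z + (n : ℂ) ∈ core X := fun n z hz N => by
    obtain ⟨H, h1, h2, h3, h4, a, ha, b, hb, hab⟩ := hz N
    have hc : Continuous fun z : ℂ => z + (n : ℂ) := continuous_id.add continuous_const
    refine ⟨(fun z => z + (n : ℂ)) '' H, h1.image hc, h2.image _ hc.continuousOn, ?_,
      mem_image_of_mem _ h4, _, mem_image_of_mem _ ha, _, mem_image_of_mem _ hb, by simpa using hab⟩
    rintro _ ⟨x, hx, rfl⟩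
    exact (h n x).2 (h3 hx)
  exact ⟨fun hz => by simpa using key (-n) _ hz, key n z⟩

theorem Ext.goodLevel (T : Tiling c N₀) (h : Ext c w) {s : ℝ} (h0 : 0 ≤ s) (h1 : s < 1)
    (hs : cutSum c w s = II c w) : GoodLevel c w s := by
  classical
  have hw := h.toComp
  set X := frontier {z | s < w z} with hX
  have hXs : X ⊆ strip := hw.frontier_subset s
  have hYs : core X ⊆ strip := (core_subset X).trans hXs
  have hper := core_per (hw.frontier_per s)
  set S := Finset.univ.filter (fun i => (c i ∩ core X).Nonempty) with hS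
  have h2 := h.le_sum_of_set (A := above (core X))
    (fun z => by simpa using above_per hYs (hper 1) z) (fun z hz => above_top hYs hz)
    (fun z hz => above_bot hYs (isClosed_core isClosed_frontier hXs)
      (separ_core isClosed_frontier hXs (hw.long_frontier h0 h1)) hz) S
    fun i ha hb => Finset.mem_filter.2 ⟨Finset.mem_univ _, above_cut (T.conn i) ha hb⟩
  have hsub : S ⊆ Finset.univ.filter (fun i => Cut w (c i) s) := fun i hi => by
    obtain ⟨y, a1, a2⟩ := (Finset.mem_filter.1 hi).2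
    exact Finset.mem_filter.2 ⟨Finset.mem_univ _,
      cut_of_frontier (T.isOpen i) ⟨y, a1, core_subset X a2⟩⟩
  intro p ha hb N
  have hcut : Cut w (c p.1) s := (hw.cut_tile p s).1 ⟨ha, hb⟩
  have hp : p.1 ∈ S := by
    by_contra hn
    have h3 := Finset.sum_lt_sum_of_subset (f := fun i => osc w (c i)) hsub
      (Finset.mem_filter.2 ⟨Finset.mem_univ _, hcut⟩) hn (hcut.osc_pos hw)
      fun i _ _ => osc_nonneg _ _
    have h4 : cutSum c w s = ∑ i ∈ Finset.univ.filter (fun i => Cut w (c i) s), osc w (c i) := by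
      unfold cutSum; congr!
    linarith
  obtain ⟨y, a1, a2⟩ := (Finset.mem_filter.1 hp).2
  obtain ⟨H, b1, b2, b3, b4, b5⟩ := (hper p.2 y).2 a2 N
  exact ⟨H, b1, b2, b3, ⟨_, b4, by simpa [tile] using a1⟩, b5⟩

end Crest.Agent.R193
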