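import Crest.Agent.R193.FU.Window

/-!
# R193/FU/HConn: horizontal connections, nearest cut tile (`μ = N₀ η`)

* `reach`: `J = [α - 10μ, β + 10μ]`, `O = ⋃ tiles meeting H`.  `L₁` a long continuum of the level set through `y₁ ∈ tile p` (`goodLevel`, so long that `u` leaves `[α-11μ, β+11μ]`: `u_lin`).
  If `y₁ ∈ O` join directly.  Otherwise `bump` in `Y = closure (strip ∩ u⁻¹ J) \ O`: `K₁`; `hits K₁` and `hits H` are disjoint families of cut tiles meeting `u⁻¹ J`, so `len K₁ ≤ 8μ` (`window_up`);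
  hence `u ∈ [α - 9μ, β + 9μ]` on `K₁`, near the exit point `y*` the points of `L₁` are in `u⁻¹ J` (`u_loc`), so `y* ∈ closure O`; a tile `q ∋ y*` (`exists_cut`) meets a tile `q'` meeting `H`; `join` in `p, q, q'`.
* `hconn`: `window_low` for `J`, `reach` twice.
* `near_pos`: `A = {z | ∃ K, Cn K, x, z ∈ K, all tiles meeting K have rho = 0}`.  If `x ∉ A` take `K = {x}`.  If some `z ∈ A` has a tile `q ∋ z` meeting a tile of positive weight, add a path in `q`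
  (`w = w x ∈ (0,1)` on `q`, so `q ⊆ strip`); the tiles of positive weight meeting the union meet `q`.  Otherwise every tile containing a point of `A` lies in `A`; so `A` is open and relatively closed in the
  (connected) strip, `A = strip`, which is not open.
-/

set_option autoImplicit false
open Set Metric Filter Topology MeasureTheory

namespace Crest.Agent.R193

variable {ι : Type} [Fintype ι] {c : ι → Set ℂ} {N₀ : ℕ} {w u : ℂ → ℝ} {η : ℝ}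

theorem Ctx.w_cut (h : Ctx c N₀ w u η) {s : ℝ} {q : ι × ℤ} (hq : Cut w (tile c q) s) {y : ℂ}
    (hy : y ∈ tile c q) : |w y - s| ≤ η := by
  obtain ⟨⟨a, ha, ha'⟩, b, hb, hb'⟩ := hq
  exact abs_le.2 ⟨by linarith [(abs_le.1 (h.w_tile hy hb)).1],
    by linarith [(abs_le.1 (h.w_tile hy ha)).2]⟩

theorem Ctx2.path (h : Ctx2 c N₀ w u η) {s : ℝ} (hs : Gd c w s) {q : ι × ℤ}
    (hq : Cut w (tile c q) s) {a b : ℂ} (ha : a ∈ tile c q) (hb : b ∈ tile c q) :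
    ∃ K, Cn K ∧ a ∈ K ∧ b ∈ K ∧ ∀ y ∈ K, |u y - u a| ≤ N₀ * η ∧ |w y - s| ≤ η := by
  obtain ⟨K, k1, k2, k3, k4, k5⟩ := h.til.join ha hb
  exact ⟨K, ⟨k1, k2, k3.trans (h.cut_strip hs hq)⟩, k4, k5, fun y hy =>
    ⟨h.u_tile (h.cut_strip hs hq) (k3 hy) ha, h.w_cut hq (k3 hy)⟩⟩

theorem Ctx2.reach (h : Ctx2 c N₀ w u η) {s α β : ℝ} (hs : Gd c w s) (hαβ : α ≤ β) {H : Set ℂ}
    (hH : Cn H) (hHf : H ⊆ frontier {z | s < w z})
    (hHu : H ⊆ closure (strip ∩ u ⁻¹' Icc (α - 10 * (N₀ * η)) (β + 10 * (N₀ * η))))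
    (hlen : β - α + 18 * (N₀ * η) ≤ len c w H) {p : ι × ℤ} (hp : Cut w (tile c p) s) {a : ℂ}
    (ha : a ∈ tile c p) (hu : u a ∈ Icc α β) : ∃ E : Set ℂ, Cn E ∧ a ∈ E ∧ (E ∩ H).Nonempty ∧
      ∀ y ∈ E, u y ∈ Icc (α - 13 * (N₀ * η)) (β + 13 * (N₀ * η)) ∧ |w y - s| ≤ η := by
  classical
  have hμ : 0 < N₀ * η := h.η_pos.trans_le h.η_le
  have hI := h.ext.II_pos h.til
  have hw := h.ext.toComp
  obtain ⟨C, hC⟩ := h.conj.u_lin h.til
  obtain ⟨L, l1, l2, l3, ⟨y₁, hy₁L, hy₁p⟩, a', ha', b', hb', hab⟩ :=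
    h.ext.goodLevel h.til (by linarith [hs.1]) (by linarith [hs.2.1]) hs.2.2 p hp.1 hp.2
      ((β - α + 23 * (N₀ * η) + 2 * C) / II c w)
  have hLs : L ⊆ strip := l3.trans (hw.frontier_subset s)
  have hcl : ∀ y ∈ closure (strip ∩ u ⁻¹' Icc (α - 10 * (N₀ * η)) (β + 10 * (N₀ * η))),
      α - 11 * (N₀ * η) ≤ u y ∧ u y ≤ β + 11 * (N₀ * η) := fun y hy => by
    obtain ⟨t, ht, ht'⟩ := h.u_closure hy
    exact ⟨by linarith [(abs_le.1 ht').1, ht.1], by linarith [(abs_le.1 ht').2, ht.2]⟩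
  set O : Set ℂ := ⋃ q ∈ hits c H, tile c q with hO
  have hOo : IsOpen O := isOpen_biUnion fun q _ => h.til.tile_open q
  have hfin : ∀ z ∈ O, ∃ E : Set ℂ, Cn E ∧ z ∈ E ∧ (E ∩ H).Nonempty ∧
      ∀ y ∈ E, u y ∈ Icc (α - 13 * (N₀ * η)) (β + 13 * (N₀ * η)) ∧ |w y - s| ≤ η := fun z hz => by
    obtain ⟨q, ⟨x, x1, x2⟩, hz⟩ := mem_iUnion₂.1 hz
    obtain ⟨K, k1, k2, k3, k4⟩ := h.path hs (cut_of_frontier (h.til.tile_open q) ⟨x, x1, hHf x2⟩)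
      x1 hz
    have := hcl x (hHu x2)
    exact ⟨K, k1, k3, ⟨x, k2, x2⟩, fun y hy => ⟨⟨by linarith [(abs_le.1 (k4 y hy).1).1, this.1],
      by linarith [(abs_le.1 (k4 y hy).1).2, this.2]⟩, (k4 y hy).2⟩⟩
  obtain ⟨K₀, k1, k2, k3, k4⟩ := h.path hs hp ha hy₁p
  have k5 : ∀ y ∈ K₀, u y ∈ Icc (α - 13 * (N₀ * η)) (β + 13 * (N₀ * η)) ∧ |w y - s| ≤ η :=
    fun y hy => ⟨⟨by linarith [(abs_le.1 (k4 y hy).1).1, hu.1],
      by linarith [(abs_le.1 (k4 y hy).1).2, hu.2]⟩, (k4 y hy).2⟩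
  have hu₁ := abs_le.1 (k4 y₁ k3).1
  by_cases hy₁ : y₁ ∈ O
  · obtain ⟨E, e1, e2, ⟨x, e3, e4⟩, e5⟩ := hfin y₁ hy₁
    exact ⟨K₀ ∪ E, k1.union e1 ⟨y₁, k3, e2⟩, Or.inl k2, ⟨x, Or.inr e3, e4⟩,
      fun y hy => hy.elim (k5 y) (e5 y)⟩
  obtain ⟨K₁, m1, m2, m3, m4, y, hy, hy'⟩ := bump
    (Y := closure (strip ∩ u ⁻¹' Icc (α - 10 * (N₀ * η)) (β + 10 * (N₀ * η))) \ O) l1 l2
    (isClosed_closure.sdiff hOo) hy₁L
    ⟨subset_closure ⟨hLs hy₁L, by linarith [hu₁.1, hu.1], by linarith [hu₁.2, hu.2]⟩, hy₁⟩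
    fun hsub => by
      rw [div_le_iff₀ hI] at hab
      linarith [(hcl a' (hsub ha').1).1, (hcl b' (hsub hb').1).2, (abs_le.1 (hC a' (hLs ha'))).2,
        (abs_le.1 (hC b' (hLs hb'))).1]
  have hK₁ : Cn K₁ := ⟨m1, m2, fun z hz => hLs (m3 hz).1⟩
  have hlen₁ : len c w K₁ ≤ 8 * (N₀ * η) := by
    have a1 := h.window_up hs (α := α - 10 * (N₀ * η)) (β := β + 10 * (N₀ * η)) (by linarith)
      ((h.til.hits_finite m1.isBounded).toFinset ∪ (h.til.hits_finite hH.cpt.isBounded).toFinset)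
      fun q hq => by
        obtain ⟨x, x1, x2, x3⟩ : ∃ x ∈ tile c q, x ∈ frontier {z | s < w z} ∧
            x ∈ closure (strip ∩ u ⁻¹' Icc (α - 10 * (N₀ * η)) (β + 10 * (N₀ * η))) := by
          rcases Finset.mem_union.1 hq with hq | hq
          · obtain ⟨x, x1, x2⟩ := (Finite.mem_toFinset _).1 hq
            exact ⟨x, x1, l3 (m3 x2).1, (m3 x2).2.1⟩
          · obtain ⟨x, x1, x2⟩ := (Finite.mem_toFinset _).1 hq
            exact ⟨x, x1, hHf x2, hHu x2⟩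
        obtain ⟨z, b1, b2⟩ := mem_closure_iff.1 x3 _ (h.til.tile_open q) x1
        exact ⟨cut_of_frontier (h.til.tile_open q) ⟨x, x1, x2⟩, z, b1, b2.2⟩
    rw [Finset.sum_union (Finset.disjoint_left.2 fun q hq hq' => by
      obtain ⟨x, x1, x2⟩ := (Finite.mem_toFinset _).1 hq
      exact (m3 x2).2.2 (mem_iUnion₂.2 ⟨q, (Finite.mem_toFinset _).1 hq', x1⟩)),
      ← h.til.len_eq m1.isBounded, ← h.til.len_eq hH.cpt.isBounded] at a1
    linarith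
  have hK₁u : ∀ z ∈ K₁, α - 9 * (N₀ * η) ≤ u z ∧ u z ≤ β + 9 * (N₀ * η) := fun z hz => by
    have := abs_le.1 ((h.conj.lip K₁ hK₁ z hz y₁ m4).trans hlen₁)
    exact ⟨by linarith [this.1, hu₁.1, hu.1], by linarith [this.2, hu₁.2, hu.2]⟩
  obtain ⟨-, q, hq1, hq2⟩ := h.exists_cut (l3 (m3 hy).1)
  obtain ⟨y', b1, b2, b3⟩ := mem_closure_iff.1 hy' _ (h.til.tile_open q) hq1
  obtain ⟨K₂, n1, n2, n3, n4⟩ := h.path hs hq2 hq1 b1
  have hy9 := hK₁u y hy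
  have hy'O : y' ∈ O := by
    by_contra hn
    have := abs_le.1 (n4 y' n3).1
    exact b3 ⟨subset_closure ⟨hLs b2, by linarith [this.1, hy9.1], by linarith [this.2, hy9.2]⟩, hn⟩
  obtain ⟨E, e1, e2, ⟨x, e3, e4⟩, e5⟩ := hfin y' hy'O
  refine ⟨((K₀ ∪ K₁) ∪ K₂) ∪ E, ((k1.union hK₁ ⟨y₁, k3, m4⟩).union n1 ⟨y, Or.inr hy, n2⟩).union e1
    ⟨y', Or.inr n3, e2⟩, Or.inl (Or.inl (Or.inl k2)), ⟨x, Or.inr e3, e4⟩, ?_⟩
  rintro z (((hz | hz) | hz) | hz)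
  · exact k5 z hz
  · exact ⟨⟨by linarith [(hK₁u z hz).1], by linarith [(hK₁u z hz).2]⟩,
      (h.exists_cut (l3 (m3 hz).1)).1⟩
  · exact ⟨⟨by linarith [(abs_le.1 (n4 z hz).1).1, hy9.1],
      by linarith [(abs_le.1 (n4 z hz).1).2, hy9.2]⟩, (n4 z hz).2⟩
  · exact e5 z hz

theorem Ctx2.hconn (h : Ctx2 c N₀ w u η) {s α β : ℝ} (hs : Gd c w s) (hαβ : α ≤ β)
    {p₁ p₂ : ι × ℤ} (h₁ : Cut w (tile c p₁) s) (h₂ : Cut w (tile c p₂) s) {a₁ a₂ : ℂ}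
    (ha₁ : a₁ ∈ tile c p₁) (ha₂ : a₂ ∈ tile c p₂) (hu₁ : u a₁ ∈ Icc α β) (hu₂ : u a₂ ∈ Icc α β) :
    ∃ E : Set ℂ, Cn E ∧ a₁ ∈ E ∧ a₂ ∈ E ∧
      ∀ y ∈ E, u y ∈ Icc (α - 13 * (N₀ * η)) (β + 13 * (N₀ * η)) ∧ |w y - s| ≤ η := by
  have hμ : 0 < N₀ * η := h.η_pos.trans_le h.η_le
  obtain ⟨H, hH, -, hHf, hHu, hlen⟩ := h.toCtx.window_low (s := s) (α := α - 10 * (N₀ * η))
    (β := β + 10 * (N₀ * η)) (by linarith [hs.1]) (by linarith [hs.2.1]) (by linarith)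
  obtain ⟨E₁, a1, a2, a3, a4⟩ := h.reach hs hαβ hH hHf hHu (by linarith) h₁ ha₁ hu₁
  obtain ⟨E₂, b1, b2, ⟨x, b3, b3'⟩, b4⟩ := h.reach hs hαβ hH hHf hHu (by linarith) h₂ ha₂ hu₂
  refine ⟨(E₁ ∪ H) ∪ E₂, (a1.union hH a3).union b1 ⟨x, Or.inr b3', b3⟩, Or.inl (Or.inl a2),
    Or.inr b2, ?_⟩
  rintro z ((hz | hz) | hz)
  · exact a4 z hz
  · obtain ⟨t, ht, ht'⟩ := h.u_closure (hHu hz)
    exact ⟨⟨by linarith [(abs_le.1 ht').1, ht.1], by linarith [(abs_le.1 ht').2, ht.2]⟩,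
      (h.exists_cut (hHf hz)).1⟩
  · exact b4 z hz

theorem Ctx.near_pos (h : Ctx c N₀ w u η) {x : ℂ} (h0 : 0 < w x) (h1 : w x < 1) :
    ∃ (K : Set ℂ) (p : ι × ℤ), Cn K ∧ x ∈ K ∧ len c w K ≤ N₀ * η ∧ 0 < rho c w p ∧
      (K ∩ tile c p).Nonempty := by
  classical
  have hw := h.ext.toComp
  have hst : ∀ z, w z = w x → z ∈ strip := fun z hz =>
    ⟨not_lt.1 fun a => by linarith [hw.bot z a], not_lt.1 fun a => by linarith [hw.top z a]⟩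
  have hr0 : ∀ p, 0 ≤ rho c w p := fun p => osc_nonneg _ _
  by_contra hcon
  push Not at hcon
  -- every continuum through `x` of length `≤ μ` has length zero
  let P : ℂ → Prop := fun z => ∃ K, Cn K ∧ x ∈ K ∧ z ∈ K ∧ len c w K ≤ 0
  have hzero : ∀ K, Cn K → x ∈ K → len c w K ≤ N₀ * η → len c w K ≤ 0 := fun K k1 k2 k3 => by
    rw [h.til.len_eq k1.cpt.isBounded]
    refine (Finset.sum_eq_zero fun p hp => le_antisymm (not_lt.1 fun a => ?_) (hr0 p)).le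
    obtain ⟨z, b1, b2⟩ := (Finite.mem_toFinset _).1 hp
    exact (eq_empty_iff_forall_notMem.1 (hcon K p k1 k2 k3 a)) z ⟨b2, b1⟩
  have hstep : ∀ q z z', z ∈ tile c q → z' ∈ tile c q → P z → P z' :=
    fun q z z' hz hz' ⟨K, k1, k2, k3, k4⟩ => by
    have a1 : rho c w q ≤ 0 := by
      have := h.til.sum_le_len (w := w) k1.cpt.isBounded {q} fun p hp => by
        rw [Finset.mem_singleton.1 hp]; exact ⟨z, hz, k3⟩
      rw [Finset.sum_singleton] at this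
      linarith
    have a2 : w z = w x := by
      have := (h.til.abs_sub_le_len hw k1 k3 k2).trans k4
      linarith [(abs_le.1 this).1, (abs_le.1 this).2]
    obtain ⟨K', j1, j2, j3, j4, j5⟩ := h.til.join hz hz'
    have a3 : Cn K' := ⟨j1, j2, fun y hy => hst y (by
      have := (abs_sub_le_osc (hw.bdd.isBounded _) (j3 hy) hz).trans ((hw.osc_tile q).trans_le a1)
      linarith [(abs_le.1 this).1, (abs_le.1 this).2])⟩
    have a4 := k1.union a3 ⟨z, k3, j4⟩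
    refine ⟨K ∪ K', a4, Or.inl k2, Or.inr j5, hzero _ a4 (Or.inl k2) ?_⟩
    linarith [h.til.len_union_le (w := w) k1.cpt.isBounded j1.isBounded, h.til.len_tile h.le_η j3]
  have hx : x ∈ strip := hst x rfl
  have hPx : P x := by
    obtain ⟨q, hq⟩ := h.til.cover x hx
    have a1 : Cn {x} := ⟨isCompact_singleton, isPreconnected_singleton, singleton_subset_iff.2 hx⟩
    exact ⟨{x}, a1, rfl, rfl, hzero _ a1 rfl (h.til.len_tile h.le_η (singleton_subset_iff.2 hq))⟩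
  have h00 : (0 : ℂ) ∈ strip := by simp [strip]
  have hP0 : P 0 := (convex_strip.isPreconnected.induction₂ (fun a b => P a ↔ P b) (fun z hz => by
      obtain ⟨q, hq⟩ := h.til.cover z hz
      exact mem_nhdsWithin_of_mem_nhds (mem_of_superset ((h.til.tile_open q).mem_nhds hq)
        fun z' hz' => ⟨hstep q z z' hq hz', hstep q z' z hz' hq⟩))
    (fun _ _ _ _ _ _ a b => a.trans b) (fun _ _ _ _ a => a.symm) hx h00).1 hPx
  obtain ⟨q, hq⟩ := h.til.cover 0 h00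
  obtain ⟨ε, hε, hb⟩ := Metric.isOpen_iff.1 (h.til.tile_open q) 0 hq
  obtain ⟨K, k1, -, k3, -⟩ := hstep q 0 (-((ε / 2 : ℝ) : ℂ) * Complex.I) hq (hb (by
    simp [abs_of_pos hε]; linarith)) hP0
  have := (k1.sub k3).1
  simp at this
  linarith

/-- the set of cutting levels has positive measure (`volume_cut`), a.e. level is good -/
theorem Ctx2.near (h : Ctx2 c N₀ w u η) {x : ℂ} (hx : w x ∈ Icc (3 / 8 : ℝ) (5 / 8)) :
    ∃ (K : Set ℂ) (s : ℝ) (p : ι × ℤ) (z : ℂ), Cn K ∧ x ∈ K ∧ z ∈ K ∧ z ∈ tile c p ∧ Gd c w s ∧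
      Cut w (tile c p) s ∧ |s - w x| ≤ 2 * (N₀ * η) ∧
      ∀ y ∈ K, |u y - u x| ≤ N₀ * η ∧ |w y - w x| ≤ N₀ * η := by
  have hw := h.ext.toComp
  have hle := h.η_le
  have hsm := h.small
  obtain ⟨K, p, k1, k2, k3, k4, z, k5, k6⟩ := h.toCtx.near_pos (x := x) (by linarith [hx.1])
    (by linarith [hx.2])
  have hK : ∀ y ∈ K, |u y - u x| ≤ N₀ * η ∧ |w y - w x| ≤ N₀ * η := fun y hy =>
    ⟨(h.conj.lip K k1 y hy x k2).trans k3, (h.til.abs_sub_le_len hw k1 hy k2).trans k3⟩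
  have hv := (volume_cut (hw.bdd.isBounded (tile c p))).2
  obtain ⟨s, hs1, hs2⟩ := Measure.exists_mem_of_measure_ne_zero_of_ae
    (s := {s | Cut w (tile c p) s}) (μ := volume)
    (by rw [hv, hw.osc_tile]; exact (ENNReal.ofReal_pos.2 k4).ne') (ae_restrict_of_ae h.ext.ae_cutSum)
  have a1 := abs_le.1 (h.w_cut hs1 k6)
  have a2 := abs_le.1 (hK z k5).2
  exact ⟨K, s, p, z, k1, k2, k5, k6, ⟨by linarith [a1.2, a2.1, hx.1], by linarith [a1.1, a2.2, hx.2],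
    hs2 ⟨by linarith [a1.2, a2.1, hx.1], by linarith [a1.1, a2.2, hx.2]⟩⟩, hs1,
    abs_le.2 ⟨by linarith [a1.2, a2.1], by linarith [a1.1, a2.2]⟩, hK⟩

end Crest.Agent.R193
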