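import Crest.Agent.R193.FU.Tile

/-!
# R193/FU/Min: the extremal function

* `exists_ext`: `I₀ = sInf` of the energies of competitors (nonempty: `f z = if 1 < im z then 1 else 0`); a minimising sequence `f_n`, `w z = lim_𝒰 f_n z`,
  `r i = lim_𝒰 osc (f_n) (c i)`, `osc w (c i) ≤ r i` (`osc_le_of_tendsto` with `r i + ε`), `∑ (r i)² = I₀`.  First variation: `(1-t) w + t f` is a competitor with
  `osc ≤ (1-t) osc w + t osc f`; expand, divide by `t`, `t → 0`.
* `II_pos`: otherwise `w` is locally constant on `ℂ` (tiles cover the strip, the open half planes), hence constant.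
* `le_sum_of_set`: `f = indicator A 1`.  `ae_cutSum`: `II ≤ cutSum s` on `[0,1)` (`A = {s < w}`), `∫_{(0,1)} cutSum ≤ ∑ osc * volume {Cut} = II` (`volume_cut`).
-/

set_option autoImplicit false
open Set Metric Filter Topology MeasureTheory

namespace Crest.Agent.R193

variable {ι : Type} [Fintype ι] {c : ι → Set ℂ} {N₀ : ℕ} {w u : ℂ → ℝ} {η : ℝ}

theorem exists_ext (c : ι → Set ℂ) : ∃ w : ℂ → ℝ, Ext c w := by
  have hK : IsCompact {f : ℂ → ℝ | Comp f} := by
    refine (isCompact_univ_pi fun _ : ℂ => isCompact_Icc (a := (0 : ℝ)) (b := 1)).of_isClosed_subset ?_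
      fun f hf z _ => hf.mem z
    have e : {f : ℂ → ℝ | Comp f} = (⋂ z, {f | f (z + 1) = f z}) ∩ (⋂ z, {f | f z ∈ Icc (0 : ℝ) 1}) ∩
        (⋂ z : ℂ, ⋂ _ : z.im < 0, {f | f z = 0}) ∩ ⋂ z : ℂ, ⋂ _ : 1 < z.im, {f | f z = 1} := by
      ext f
      simp only [mem_inter_iff, mem_iInter, mem_setOf_eq]
      exact ⟨fun h => ⟨⟨⟨h.per, h.mem⟩, h.bot⟩, h.top⟩, fun h => ⟨h.1.1.1, h.1.1.2, h.1.2, h.2⟩⟩
    rw [e]
    exact (((isClosed_iInter fun z => isClosed_eq (continuous_apply (z + 1)) (continuous_apply z)).inter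
      (isClosed_iInter fun z => (isClosed_Icc (a := (0 : ℝ)) (b := 1)).preimage
        (continuous_apply z))).inter
      (isClosed_iInter fun z => isClosed_iInter fun _ =>
        isClosed_eq (continuous_apply z) continuous_const)).inter
      (isClosed_iInter fun z => isClosed_iInter fun _ => isClosed_eq (continuous_apply z) continuous_const)
  have hl : LowerSemicontinuousOn (II c) {f : ℂ → ℝ | Comp f} :=
    lowerSemicontinuousOn_sum fun i _ f _ y hy => by
      rcases lt_or_ge y 0 with h0 | h0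
      · exact Eventually.of_forall fun _ => h0.trans_le (sq_nonneg _)
      obtain ⟨a, ha, b, hb, h⟩ := exists_lt_of_lt_osc (Real.sqrt_nonneg y)
        ((Real.sqrt_lt_sqrt h0 hy).trans_eq (Real.sqrt_sq (osc_nonneg _ _)))
      filter_upwards [self_mem_nhdsWithin, mem_nhdsWithin_of_mem_nhds
        ((((continuous_apply b).sub (continuous_apply a)).tendsto f).eventually_const_lt h)] with g hg h1
      have h2 := h1.trans_le ((le_abs_self _).trans (abs_sub_le_osc ((Comp.bdd hg).isBounded _) hb ha))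
      rw [← Real.sq_sqrt h0]
      exact pow_lt_pow_left₀ h2 (Real.sqrt_nonneg y) two_ne_zero
  obtain ⟨w, hw, hmin⟩ := hl.exists_isMinOn ⟨fun z => if 1 < z.im then 1 else 0,
    Comp.mk (fun z => by simp) (fun z => by split_ifs <;> simp) (fun z hz => if_neg (by linarith))
      fun z hz => if_pos hz⟩ hK
  have hw : Comp w := hw
  refine ⟨w, hw, fun f hf => ?_⟩
  have key : ∀ t : ℝ, 0 < t → t ≤ 1 → 2 * (II c w - ∑ i, osc w (c i) * osc f (c i)) ≤
      t * ∑ i, (osc f (c i) - osc w (c i)) ^ 2 := fun t h0 h1 => by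
    have hc : Comp fun z => (1 - t) * w z + t * f z :=
      ⟨fun z => by rw [hw.per, hf.per], fun z => ⟨by nlinarith [(hw.mem z).1, (hf.mem z).1],
        by nlinarith [(hw.mem z).2, (hf.mem z).2]⟩, fun z hz => by simp [hw.bot z hz, hf.bot z hz],
        fun z hz => by simp [hw.top z hz, hf.top z hz]⟩
    have h2 : II c w ≤ ∑ i, ((1 - t) * osc w (c i) + t * osc f (c i)) ^ 2 :=
      (hmin hc).trans (Finset.sum_le_sum fun i _ => pow_le_pow_left₀ (osc_nonneg _ _)
        (osc_le (add_nonneg (mul_nonneg (by linarith) (osc_nonneg _ _)) (mul_nonneg h0.le (osc_nonneg _ _)))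
          fun a ha b hb => by
            nlinarith [mul_le_mul_of_nonneg_left ((le_abs_self _).trans
                (abs_sub_le_osc (hw.bdd.isBounded _) ha hb)) (sub_nonneg.2 h1),
              mul_le_mul_of_nonneg_left ((le_abs_self _).trans
                (abs_sub_le_osc (hf.bdd.isBounded _) ha hb)) h0.le]) 2)
    have h3 : ∑ i, ((1 - t) * osc w (c i) + t * osc f (c i)) ^ 2 = II c w +
        t * (t * ∑ i, (osc f (c i) - osc w (c i)) ^ 2 -
          2 * (II c w - ∑ i, osc w (c i) * osc f (c i))) := by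
      simp only [II, Finset.mul_sum, ← Finset.sum_sub_distrib, ← Finset.sum_add_distrib]
      exact Finset.sum_congr rfl fun i _ => by ring
    rw [h3, le_add_iff_nonneg_right, mul_nonneg_iff_of_pos_left h0] at h2
    linarith
  have ht : Tendsto (fun t : ℝ => t * ∑ i, (osc f (c i) - osc w (c i)) ^ 2) (𝓝[>] 0) (𝓝 0) := by
    simpa using (tendsto_id.mono_left (nhdsWithin_le_nhds (a := (0 : ℝ)) (s := Ioi 0))).mul_const
      (∑ i, (osc f (c i) - osc w (c i)) ^ 2)
  have := ge_of_tendsto ht (Eventually.mono (Ioc_mem_nhdsGT one_pos) fun t h => key t h.1 h.2)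
  linarith

theorem Ext.II_pos (T : Tiling c N₀) (h : Ext c w) : 0 < II c w := by
  refine lt_of_le_of_ne (Finset.sum_nonneg fun _ _ => sq_nonneg _) fun h0 => ?_
  have h1 : ∀ i, osc w (c i) = 0 := fun i => pow_eq_zero_iff two_ne_zero |>.1
    ((Finset.sum_eq_zero_iff_of_nonneg fun _ _ => sq_nonneg _).1 h0.symm i (Finset.mem_univ i))
  have h2 : IsLocallyConstant w := (IsLocallyConstant.iff_eventually_eq w).2 fun z => by
    rcases lt_or_ge z.im 0 with a | a
    · filter_upwards [(Complex.continuous_im.tendsto z).eventually_lt_const a] with y hy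
      rw [h.bot y hy, h.bot z a]
    rcases lt_or_ge 1 z.im with b | b
    · filter_upwards [(Complex.continuous_im.tendsto z).eventually_const_lt b] with y hy
      rw [h.top y hy, h.top z b]
    obtain ⟨p, hp⟩ := T.cover z ⟨a, b⟩
    filter_upwards [(T.tile_open p).mem_nhds hp] with y hy
    have := abs_sub_le_osc (h.toComp.bdd.isBounded _) hy hp
    rw [h.toComp.osc_tile, rho, h1] at this
    exact sub_eq_zero.1 (abs_nonpos_iff.1 this)
  have := h2.apply_eq_of_preconnectedSpace (-Complex.I) (2 * Complex.I)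
  rw [h.bot _ (by simp), h.top _ (by simp)] at this
  exact zero_ne_one this

theorem Ext.le_sum_of_set (h : Ext c w) {A : Set ℂ} (hper : ∀ z, z + 1 ∈ A ↔ z ∈ A)
    (htop : ∀ z : ℂ, 1 < z.im → z ∈ A) (hbot : ∀ z : ℂ, z.im < 0 → z ∉ A) (S : Finset ι)
    (hS : ∀ i, (∃ a ∈ c i, a ∈ A) → (∃ b ∈ c i, b ∉ A) → i ∈ S) :
    II c w ≤ ∑ i ∈ S, osc w (c i) := by
  classical
  have hf : Comp (A.indicator fun _ => (1 : ℝ)) :=
    ⟨fun z => by simp only [indicator, hper], fun z => by
      unfold indicator; split_ifs <;> norm_num,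
      fun z hz => indicator_of_notMem (hbot z hz) _, fun z hz => indicator_of_mem (htop z hz) _⟩
  refine (h.var _ hf).trans ?_
  rw [← Finset.sum_subset (Finset.subset_univ S) fun i _ hi => ?_]
  · refine Finset.sum_le_sum fun i _ => mul_le_of_le_one_right (osc_nonneg _ _)
      (osc_le zero_le_one fun a _ b _ => ?_)
    linarith [(hf.mem a).2, (hf.mem b).1]
  · refine mul_eq_zero_of_right _ (le_antisymm (osc_le le_rfl fun a ha b hb => ?_) (osc_nonneg _ _))
    by_cases h1 : a ∈ A
    · by_cases h2 : b ∈ A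
      · simp [h1, h2]
      · exact absurd (hS i ⟨a, ha, h1⟩ ⟨b, hb, h2⟩) hi
    · rw [indicator_of_notMem h1]
      linarith [(hf.mem b).1]

theorem Ext.ae_cutSum (h : Ext c w) : ∀ᵐ s : ℝ, s ∈ Ioo (0 : ℝ) 1 → cutSum c w s = II c w := by
  classical
  have hv := fun i => volume_cut (h.toComp.bdd.isBounded (c i))
  have hle : ∀ s ∈ Ioo (0 : ℝ) 1, II c w ≤ cutSum c w s := fun s hs =>
    h.le_sum_of_set (A := {z | s < w z}) (fun z => by simp only [mem_ofPred_eq, h.per])
      (fun z hz => by simp only [mem_ofPred_eq, h.top z hz, hs.2])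
      (fun z hz => by simp only [mem_ofPred_eq, h.bot z hz, not_lt, hs.1.le]) _
      fun i ⟨a, ha, h1⟩ ⟨b, hb, h2⟩ =>
        Finset.mem_filter.2 ⟨Finset.mem_univ _, ⟨b, hb, not_lt.1 h2⟩, a, ha, h1⟩
  have he : cutSum c w = fun s => ∑ i, {s | Cut w (c i) s}.indicator (fun _ => osc w (c i)) s := by
    funext s
    rw [cutSum, Finset.sum_filter]
    rfl
  have hi : ∀ i, Integrable ({s | Cut w (c i) s}.indicator fun _ => osc w (c i))
      (volume.restrict (Ioo (0 : ℝ) 1)) := fun i => (integrable_const _).indicator (hv i).1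
  have hi' : Integrable (cutSum c w) (volume.restrict (Ioo (0 : ℝ) 1)) := by
    rw [he]; exact integrable_finsetSum _ fun i _ => hi i
  have h1 : ∫ s in Ioo (0 : ℝ) 1, cutSum c w s ≤ II c w := by
    rw [he, integral_finsetSum _ fun i _ => hi i]
    refine Finset.sum_le_sum fun i _ => ?_
    rw [integral_indicator_const _ (hv i).1, smul_eq_mul, sq]
    refine mul_le_mul_of_nonneg_right (ENNReal.toReal_le_of_le_ofReal (osc_nonneg _ _) ?_) (osc_nonneg _ _)
    rw [← (hv i).2]
    exact Measure.restrict_le_self _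
  have h0 : 0 ≤ᵐ[volume.restrict (Ioo (0 : ℝ) 1)] fun s => cutSum c w s - II c w := by
    filter_upwards [ae_restrict_mem measurableSet_Ioo] with s hs using sub_nonneg.2 (hle s hs)
  have h2 := (integral_eq_zero_iff_of_nonneg_ae h0 (hi'.sub (integrable_const _))).1
    (le_antisymm (by
      rw [integral_sub hi' (integrable_const _)]
      simpa using h1) (integral_nonneg_of_ae h0))
  filter_upwards [(ae_restrict_iff' measurableSet_Ioo).1 h2] with s hs hs'
  exact sub_eq_zero.1 (hs hs')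

theorem Ext.exists_cutSum (h : Ext c w) {s₁ s₂ : ℝ} (h0 : 0 ≤ s₁) (h1 : s₁ < s₂) (h2 : s₂ ≤ 1) :
    ∃ s ∈ Ioo s₁ s₂, cutSum c w s = II c w := by
  by_contra hc
  push Not at hc
  have h3 : volume (Ioo s₁ s₂) = 0 := by
    refine measure_mono_null (fun s hs => ?_) (ae_iff.1 h.ae_cutSum)
    exact fun h4 => hc s hs (h4 ⟨h0.trans_lt hs.1, hs.2.trans_le h2⟩)
  rw [Real.volume_Ioo, ENNReal.ofReal_eq_zero] at h3
  linarith

omit [Fintype ι] in
theorem Cut.osc_pos {B : Set ℂ} {s : ℝ} (hw : Comp w) (h : Cut w B s) : 0 < osc w B := by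
  obtain ⟨⟨a, ha, h1⟩, b, hb, h2⟩ := h
  linarith [(abs_le.1 (abs_sub_le_osc (hw.bdd.isBounded B) hb ha)).2]

end Crest.Agent.R193
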