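import Crest.Agent.R193.FU.Defs

/-!
# R193/FU/Tile: tiles and lengths
-/

set_option autoImplicit false
open Set Metric Filter Topology MeasureTheory

namespace Crest.Agent.R193

variable {ι : Type} [Fintype ι] {c : ι → Set ℂ} {N₀ : ℕ} {w u : ℂ → ℝ} {η : ℝ}

omit [Fintype ι] in
theorem tile_zero (i : ι) : tile c (i, 0) = c i := by
  ext z; simp [tile]

omit [Fintype ι] in
theorem mem_tile_add {p : ι × ℤ} {z : ℂ} (n : ℤ) :
    z + (n : ℂ) ∈ tile c (p.1, p.2 + n) ↔ z ∈ tile c p := by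
  simp [tile]

omit [Fintype ι] in
theorem Tiling.tile_open (T : Tiling c N₀) (p : ι × ℤ) : IsOpen (tile c p) := by
  exact (T.isOpen p.1).preimage (continuous_id.sub continuous_const)

omit [Fintype ι] in
theorem Tiling.tile_conn (T : Tiling c N₀) (p : ι × ℤ) : IsPreconnected (tile c p) := by
  have e : tile c p = (fun z => z + (p.2 : ℂ)) '' c p.1 := by
    ext z
    exact ⟨fun h => ⟨_, h, sub_add_cancel _ _⟩, by rintro ⟨y, hy, rfl⟩; simpa [tile] using hy⟩
  rw [e]
  exact (T.conn p.1).image _ (by fun_prop)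

omit [Fintype ι] in
theorem Tiling.one_le (T : Tiling c N₀) : 1 ≤ N₀ := by
  obtain ⟨p, hp⟩ := T.cover 0 (by simp [strip])
  obtain ⟨S, h1, h2⟩ := T.mult p
  exact (Finset.card_pos.2 ⟨p, h2 p ⟨0, hp, hp⟩⟩).trans_le h1

omit [Fintype ι] in
/-- open connected sets of the plane are path connected -/
theorem Tiling.join (T : Tiling c N₀) {p : ι × ℤ} {a b : ℂ} (ha : a ∈ tile c p)
    (hb : b ∈ tile c p) : ∃ K : Set ℂ, IsCompact K ∧ IsPreconnected K ∧ K ⊆ tile c p ∧
      a ∈ K ∧ b ∈ K := by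
  have h := ((T.tile_open p).isConnected_iff_isPathConnected.1 ⟨⟨a, ha⟩, T.tile_conn p⟩).joinedIn a ha b hb
  exact ⟨range h.somePath, isCompact_range h.somePath.continuous, isPreconnected_range h.somePath.continuous,
    by rintro _ ⟨t, rfl⟩; exact h.somePath_mem t, ⟨0, h.somePath.source⟩, ⟨1, h.somePath.target⟩⟩

theorem Comp.per_int (h : Comp w) (z : ℂ) (n : ℤ) : w (z + n) = w z := by
  have : Function.Periodic w 1 := h.per
  simpa using this.int_mul n z

theorem Comp.bdd (h : Comp w) : Bdd w := by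
  exact ⟨1, fun z => abs_le.2 ⟨by linarith [(h.mem z).1], (h.mem z).2⟩⟩

omit [Fintype ι] in
theorem Comp.osc_tile (h : Comp w) (p : ι × ℤ) : osc w (tile c p) = rho c w p := by
  unfold rho osc
  congr 1
  ext t
  constructor
  · rintro ⟨z, hz, rfl⟩
    exact ⟨_, hz, by simpa using (h.per_int (z - p.2) p.2).symm⟩
  · rintro ⟨z, hz, rfl⟩
    exact ⟨z + p.2, by simpa [tile] using hz, h.per_int z p.2⟩

omit [Fintype ι] in
theorem Comp.cut_tile (h : Comp w) (p : ι × ℤ) (s : ℝ) : Cut w (tile c p) s ↔ Cut w (c p.1) s := by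
  have e : ∀ z : ℂ, w (z - p.2) = w z := fun z => by simpa using (h.per_int (z - p.2) p.2).symm
  constructor
  · rintro ⟨⟨a, ha, h1⟩, b, hb, h2⟩
    exact ⟨⟨_, ha, by rwa [e]⟩, _, hb, by rwa [e]⟩
  · rintro ⟨⟨a, ha, h1⟩, b, hb, h2⟩
    exact ⟨⟨a + p.2, by simpa [tile] using ha, by rwa [h.per_int]⟩, b + p.2, by simpa [tile] using hb,
      by rwa [h.per_int]⟩

omit [Fintype ι] in
theorem tile_subset_strip (p : ι × ℤ) : tile c p ⊆ strip ↔ c p.1 ⊆ strip := by
  constructor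
  · intro h z hz
    simpa [strip] using h (show z + p.2 ∈ tile c p by simpa [tile] using hz)
  · intro h z hz
    simpa [strip] using h hz

theorem isClosed_strip : IsClosed strip := by
  exact (isClosed_le continuous_const Complex.continuous_im).inter (isClosed_le Complex.continuous_im continuous_const)

theorem convex_strip : Convex ℝ strip := by
  exact (convex_halfSpace_im_ge 0).inter (convex_halfSpace_im_le 1)

theorem Cn.union {K K' : Set ℂ} (h : Cn K) (h' : Cn K') (hn : (K ∩ K').Nonempty) : Cn (K ∪ K') := by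
  exact ⟨h.1.union h'.1, IsPreconnected.union' hn h.2 h'.2, union_subset h.3 h'.3⟩

theorem Cn.segment {a b : ℂ} (ha : a ∈ strip) (hb : b ∈ strip) : Cn (segment ℝ a b) := by
  refine ⟨?_, (convex_segment a b).isPreconnected, convex_strip.segment_subset ha hb⟩
  rw [segment_eq_image]
  exact isCompact_Icc.image (by fun_prop)

theorem Cn.translate {K : Set ℂ} (h : Cn K) (n : ℤ) : Cn ((fun z => z + (n : ℂ)) '' K) := by
  refine ⟨h.1.image (by fun_prop), h.2.image _ (by fun_prop), ?_⟩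
  rintro _ ⟨z, hz, rfl⟩
  simpa [strip] using h.3 hz

theorem Tiling.hits_finite (T : Tiling c N₀) {K : Set ℂ} (hK : Bornology.IsBounded K) :
    (hits c K).Finite := by
  obtain ⟨R, hR⟩ := hK.exists_norm_le
  choose B hB using fun i => (T.bdd i).exists_norm_le
  obtain ⟨N, hN⟩ := exists_nat_ge (R + ∑ i, |B i|)
  refine ((finite_univ (α := ι)).prod (finite_Icc (-(N : ℤ)) N)).subset ?_
  rintro ⟨i, n⟩ ⟨z, hz, hzK⟩
  refine ⟨mem_univ _, ?_⟩
  have h1 : ‖z - (n : ℂ)‖ ≤ B i := hB i _ hz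
  have h2 := hR z hzK
  have h3 : |B i| ≤ ∑ i, |B i| := Finset.single_le_sum (f := fun i => |B i|) (fun i _ => abs_nonneg _)
    (Finset.mem_univ i)
  have h4 : ‖(n : ℂ)‖ ≤ ‖z‖ + ‖z - (n : ℂ)‖ := by
    have := norm_sub_le z (z - (n : ℂ))
    rwa [sub_sub_cancel] at this
  rw [Complex.norm_intCast] at h4
  have h5 : |(n : ℝ)| ≤ N := by linarith [le_abs_self (B i)]
  have h6 : |n| ≤ (N : ℤ) := by exact_mod_cast h5
  exact abs_le.1 h6

omit [Fintype ι] in
theorem tileb_rho_nonneg (p : ι × ℤ) : 0 ≤ rho c w p := osc_nonneg _ _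

theorem Tiling.len_le_sum (T : Tiling c N₀) {K : Set ℂ} (S : Finset (ι × ℤ))
    (hS : ∀ p ∈ hits c K, p ∈ S) : len c w K ≤ ∑ p ∈ S, rho c w p := by
  have hf : (hits c K).Finite := S.finite_toSet.subset hS
  rw [len, finsum_mem_eq_finite_toFinset_sum _ hf]
  exact Finset.sum_le_sum_of_subset_of_nonneg (fun p hp => hS p (hf.mem_toFinset.1 hp))
    fun p _ _ => tileb_rho_nonneg p

theorem Tiling.sum_le_len (T : Tiling c N₀) {K : Set ℂ} (hK : Bornology.IsBounded K)
    (S : Finset (ι × ℤ)) (hS : ∀ p ∈ S, p ∈ hits c K) : ∑ p ∈ S, rho c w p ≤ len c w K := by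
  have hf := T.hits_finite hK
  rw [len, finsum_mem_eq_finite_toFinset_sum _ hf]
  exact Finset.sum_le_sum_of_subset_of_nonneg (fun p hp => hf.mem_toFinset.2 (hS p hp))
    fun p _ _ => tileb_rho_nonneg p

theorem Tiling.len_eq (T : Tiling c N₀) {K : Set ℂ} (hK : Bornology.IsBounded K) :
    len c w K = ∑ p ∈ (T.hits_finite hK).toFinset, rho c w p := by
  exact finsum_mem_eq_finite_toFinset_sum _ _

omit [Fintype ι] in
theorem len_nonneg (K : Set ℂ) : 0 ≤ len c w K := by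
  exact finsum_nonneg fun p => finsum_nonneg fun _ => tileb_rho_nonneg p

theorem Tiling.len_mono (T : Tiling c N₀) {K K' : Set ℂ} (hK : Bornology.IsBounded K')
    (h : K ⊆ K') : len c w K ≤ len c w K' := by
  rw [T.len_eq hK]
  refine T.len_le_sum _ fun p hp => (T.hits_finite hK).mem_toFinset.2 ?_
  exact Set.Nonempty.mono (inter_subset_inter_right _ h) hp

theorem Tiling.len_union_le (T : Tiling c N₀) {K K' : Set ℂ} (hK : Bornology.IsBounded K)
    (hK' : Bornology.IsBounded K') : len c w (K ∪ K') ≤ len c w K + len c w K' := by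
  classical
  rw [T.len_eq hK, T.len_eq hK', ← Finset.sum_union_inter]
  refine (T.len_le_sum ((T.hits_finite hK).toFinset ∪ (T.hits_finite hK').toFinset) ?_).trans
    (le_add_of_nonneg_right (Finset.sum_nonneg fun p _ => tileb_rho_nonneg p))
  rintro p ⟨z, hz, hz' | hz'⟩
  · exact Finset.mem_union_left _ ((T.hits_finite hK).mem_toFinset.2 ⟨z, hz, hz'⟩)
  · exact Finset.mem_union_right _ ((T.hits_finite hK').mem_toFinset.2 ⟨z, hz, hz'⟩)

omit [Fintype ι] in
theorem len_translate (K : Set ℂ) (n : ℤ) :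
    len c w ((fun z => z + (n : ℂ)) '' K) = len c w K := by
  symm
  refine finsum_mem_eq_of_bijOn (fun p : ι × ℤ => (p.1, p.2 + n)) ⟨?_, ?_, ?_⟩ fun p _ => rfl
  · rintro p ⟨z, hz, hzK⟩
    exact ⟨z + n, (mem_tile_add n).2 hz, z, hzK, rfl⟩
  · rintro ⟨i, a⟩ - ⟨j, b⟩ - h
    simp only [Prod.mk.injEq, add_left_inj] at h
    exact Prod.ext h.1 h.2
  · rintro ⟨i, a⟩ ⟨_, hz, z, hzK, rfl⟩
    refine ⟨(i, a - n), ⟨z, (mem_tile_add n).1 ?_, hzK⟩, by simp⟩
    simpa using hz

/-- `mult` -/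
theorem Tiling.len_tile (T : Tiling c N₀) (hη : ∀ i, osc w (c i) ≤ η) {K : Set ℂ} {p : ι × ℤ}
    (hK : K ⊆ tile c p) : len c w K ≤ N₀ * η := by
  obtain ⟨S, hS, h⟩ := T.mult p
  have h0 : 0 ≤ η := (osc_nonneg _ _).trans (hη p.1)
  refine (T.len_le_sum S ?_).trans ?_
  · rintro q ⟨z, hz, hzK⟩
    exact h q ⟨z, hK hzK, hz⟩
  · refine (Finset.sum_le_card_nsmul S _ η fun q _ => hη q.1).trans ?_
    rw [nsmul_eq_mul]
    exact mul_le_mul_of_nonneg_right (by exact_mod_cast hS) h0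

/-- `abs_sub_le_sum` with the tiles meeting `K` -/
theorem Tiling.abs_sub_le_len (T : Tiling c N₀) (hw : Comp w) {K : Set ℂ} (hK : Cn K) {a b : ℂ}
    (ha : a ∈ K) (hb : b ∈ K) : |w a - w b| ≤ len c w K := by
  rw [T.len_eq hK.cpt.isBounded, ← Finset.sum_congr rfl fun p _ => hw.osc_tile p]
  refine abs_sub_le_sum _ (fun p _ => hw.bdd.isBounded _) (fun p _ => T.tile_open p) hK.conn
    (fun z hz => ?_) ha hb
  obtain ⟨p, hp⟩ := T.cover z (hK.sub hz)
  exact ⟨p, (T.hits_finite hK.cpt.isBounded).mem_toFinset.2 ⟨z, hp, hz⟩, hp⟩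

end Crest.Agent.R193
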