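import Crest.Agent.R193.FU.Conj

/-!
# R193/FU/UProp: properties of the conjugate function, walls

* `u_loc`: a ball around `y` inside a tile; segments; `len_tile`.
* `u_lin`: reduce to `0 ≤ re < 1` by periodicity; the segment from `0` lies in the unit square, `len_mono`.
* `u_en`: for `c i ⊆ strip`, `osc u (c i) ≤ ∑_{p ∈ T_i} rho p`, `T_i` = tiles meeting `(i,0)` (`join`, `lip`, `len_le_sum`), Cauchy–Schwarz, and for each `i'` the pairs `(i, n')` with `(i', n') ∈ T_i`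
  inject into the tiles `(i, -n')` meeting `(i', 0)`.
* `wall`: `R40.cross` with `φ z = a + (b-a) re z + i im z`, `P0 = closure (strip ∩ {u ≤ α})`, `P1 = closure (strip ∩ {α < u})`, `u_lin`, `u_closure`.
-/

set_option autoImplicit false
open Set Metric Filter Topology MeasureTheory

namespace Crest.Agent.R193

variable {ι : Type} [Fintype ι] {c : ι → Set ℂ} {N₀ : ℕ} {w u : ℂ → ℝ} {η : ℝ}

theorem Ctx.η_pos (h : Ctx c N₀ w u η) : 0 < η := by
  by_contra hη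
  have h0 : II c w = 0 := Finset.sum_eq_zero fun i _ => by
    rw [le_antisymm ((h.le_η i).trans (not_lt.1 hη)) (osc_nonneg w (c i))]
    norm_num
  exact (h.ext.II_pos h.til).ne' h0

theorem Ctx.η_le (h : Ctx c N₀ w u η) : η ≤ N₀ * η := by
  have h1 : (1 : ℝ) ≤ N₀ := by exact_mod_cast h.til.one_le
  nlinarith [h.η_pos]

theorem Conj.per_int (h : Conj c w u) {z : ℂ} (hz : z ∈ strip) (n : ℤ) :
    u (z + n) = u z + n * II c w := by
  have hs : ∀ m : ℤ, z + (m : ℂ) ∈ strip := fun m => by simpa [strip] using hz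
  induction n using Int.induction_on with
  | zero => simp
  | succ n ih =>
    have := h.per _ (hs n)
    push_cast at this ih ⊢
    rw [← add_assoc, this, ih]
    ring
  | pred n ih =>
    have := h.per _ (hs (-n - 1))
    push_cast at this ih ⊢
    rw [show z + (-(n : ℂ) - 1) + 1 = z + -(n : ℂ) by ring, ih] at this
    linarith

theorem Ctx.u_tile (h : Ctx c N₀ w u η) {p : ι × ℤ} (hp : tile c p ⊆ strip) {a b : ℂ}
    (ha : a ∈ tile c p) (hb : b ∈ tile c p) : |u a - u b| ≤ N₀ * η := by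
  obtain ⟨K, h1, h2, h3, h4, h5⟩ := h.til.join ha hb
  exact (h.conj.lip K ⟨h1, h2, h3.trans hp⟩ a h4 b h5).trans (h.til.len_tile h.le_η h3)

theorem Ctx.w_tile (h : Ctx c N₀ w u η) {p : ι × ℤ} {a b : ℂ}
    (ha : a ∈ tile c p) (hb : b ∈ tile c p) : |w a - w b| ≤ η := by
  refine (abs_sub_le_osc (h.ext.toComp.bdd.isBounded _) ha hb).trans ?_
  rw [h.ext.toComp.osc_tile]
  exact h.le_η _

theorem Ctx.u_loc (h : Ctx c N₀ w u η) {y : ℂ} (hy : y ∈ strip) :
    ∀ᶠ y' in 𝓝 y, y' ∈ strip → |u y' - u y| ≤ N₀ * η := by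
  obtain ⟨p, hp⟩ := h.til.cover y hy
  obtain ⟨ε, hε, hb⟩ := Metric.isOpen_iff.1 (h.til.tile_open p) y hp
  filter_upwards [ball_mem_nhds y hε] with y' hy' hs
  have hsub : segment ℝ y' y ⊆ tile c p :=
    ((convex_ball y ε).segment_subset hy' (mem_ball_self hε)).trans hb
  exact (h.conj.lip _ (Cn.segment hs hy) y' (left_mem_segment _ _ _) y (right_mem_segment _ _ _)).trans
    (h.til.len_tile h.le_η hsub)

theorem Ctx.u_closure (h : Ctx c N₀ w u η) {S : Set ℝ} {y : ℂ}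
    (hy : y ∈ closure (strip ∩ u ⁻¹' S)) : ∃ t ∈ S, |u y - t| ≤ N₀ * η := by
  have hs : y ∈ strip := isClosed_strip.closure_subset_iff.2 inter_subset_left hy
  obtain ⟨y', h1, h2⟩ := mem_closure_iff_nhds.1 hy _ (h.u_loc hs)
  exact ⟨u y', h2.2, by rw [abs_sub_comm]; exact h1 h2.1⟩

theorem Ctx.w_closure (h : Ctx c N₀ w u η) {S : Set ℝ} {y : ℂ} (hs : y ∈ strip)
    (hy : y ∈ closure (w ⁻¹' S)) : ∃ t ∈ S, |w y - t| ≤ η := by
  obtain ⟨p, hp⟩ := h.til.cover y hs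
  obtain ⟨y', h1, h2⟩ := mem_closure_iff.1 hy _ (h.til.tile_open p) hp
  exact ⟨w y', h2, h.w_tile hp h1⟩

/-- a point of the level set lies in a tile cut by the level -/
theorem Ctx.exists_cut (h : Ctx c N₀ w u η) {s : ℝ} {y : ℂ} (hy : y ∈ frontier {z | s < w z}) :
    |w y - s| ≤ η ∧ ∃ p, y ∈ tile c p ∧ Cut w (tile c p) s := by
  obtain ⟨p, hp⟩ := h.til.cover y (h.ext.toComp.frontier_subset s hy)
  have hc : Cut w (tile c p) s := cut_of_frontier (h.til.tile_open p) ⟨y, hp, hy⟩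
  refine ⟨?_, p, hp, hc⟩
  obtain ⟨⟨a, ha, ha'⟩, b, hb, hb'⟩ := hc
  have h1 := abs_le.1 (h.w_tile hp ha)
  have h2 := abs_le.1 (h.w_tile hp hb)
  rw [abs_le]
  constructor <;> linarith [h1.2, h2.1]

theorem Conj.u_lin (T : Tiling c N₀) (h : Conj c w u) :
    ∃ C : ℝ, ∀ z ∈ strip, |u z - II c w * z.re| ≤ C := by
  refine ⟨|u 0| + len c w (closedBall 0 2) + |II c w|, fun z hz => ?_⟩
  have h0 : (0 : ℂ) ∈ strip := by simp [strip]
  obtain ⟨z', hz'⟩ : ∃ z' : ℂ, z' = z - (⌊z.re⌋ : ℤ) := ⟨_, rfl⟩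
  have him : z'.im = z.im := by simp [hz']
  have hre : z'.re = z.re - (⌊z.re⌋ : ℤ) := by simp [hz']
  have hs : z' ∈ strip := by simpa [strip, him] using hz
  have r0 : 0 ≤ z'.re := by rw [hre]; linarith [Int.floor_le z.re]
  have r1 : z'.re ≤ 1 := by rw [hre]; linarith [Int.lt_floor_add_one z.re]
  have hn : z' ∈ closedBall (0 : ℂ) 2 := by
    rw [mem_closedBall_zero_iff]
    refine (Complex.norm_le_abs_re_add_abs_im z').trans ?_
    rw [abs_of_nonneg r0, abs_of_nonneg hs.1]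
    linarith [hs.2]
  have e1 : u z = u z' + (⌊z.re⌋ : ℤ) * II c w := by
    rw [← h.per_int hs, hz', sub_add_cancel]
  have e2 : |u z' - u 0| ≤ len c w (closedBall 0 2) :=
    (h.lip _ (Cn.segment hs h0) z' (left_mem_segment _ _ _) 0 (right_mem_segment _ _ _)).trans
      (T.len_mono isBounded_closedBall
        ((convex_closedBall 0 2).segment_subset hn (mem_closedBall_self (by norm_num))))
  have e3 : |II c w * z'.re| ≤ |II c w| := by
    rw [abs_mul, abs_of_nonneg r0]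
    exact mul_le_of_le_one_right (abs_nonneg _) r1
  have e4 : u z - II c w * z.re = u 0 + (u z' - u 0) - II c w * z'.re := by
    rw [e1, hre]
    ring
  rw [e4]
  exact (abs_sub _ _).trans (add_le_add ((abs_add_le _ _).trans (add_le_add le_rfl e2)) e3)

open Classical in
theorem Conj.u_en (T : Tiling c N₀) (h : Conj c w u) :
    ∑ i ∈ Finset.univ.filter (fun i => c i ⊆ strip), osc u (c i) ^ 2 ≤ (N₀ : ℝ) ^ 2 * II c w := by
  choose R hR hR' using T.mult
  let S : ι → Finset (ι × ℤ) := fun i =>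
    (R (i, 0)).filter fun p => (tile c (i, 0) ∩ tile c p).Nonempty
  have hS : ∀ i p, p ∈ S i ↔ (tile c (i, 0) ∩ tile c p).Nonempty := fun i p =>
    ⟨fun hp => (Finset.mem_filter.1 hp).2, fun hp => Finset.mem_filter.2 ⟨hR' _ _ hp, hp⟩⟩
  have hc : ∀ i, ((S i).card : ℝ) ≤ N₀ := fun i => by
    exact_mod_cast (Finset.card_filter_le _ _).trans (hR (i, 0))
  have hsw : ∀ i p, p ∈ S i → (i, -p.2) ∈ S p.1 := fun i p hp => by
    obtain ⟨z, h1, h2⟩ := (hS i p).1 hp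
    exact (hS _ _).2 ⟨z - p.2, by simpa [tile] using h2, by simpa [tile] using h1⟩
  have h1 : ∀ i, c i ⊆ strip → osc u (c i) ^ 2 ≤ N₀ * ∑ p ∈ S i, rho c w p ^ 2 := fun i hi => by
    have h2 : osc u (c i) ≤ ∑ p ∈ S i, rho c w p :=
      osc_le (Finset.sum_nonneg fun p _ => osc_nonneg _ _) fun a ha b hb => by
        rw [← tile_zero (c := c) i] at ha hb hi
        obtain ⟨K, k1, k2, k3, k4, k5⟩ := T.join ha hb
        refine (le_abs_self _).trans ((h.lip K ⟨k1, k2, k3.trans hi⟩ a k4 b k5).trans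
          (T.len_le_sum _ fun p ⟨z, hz, hz'⟩ => (hS i p).2 ⟨z, k3 hz', hz⟩))
    refine (pow_le_pow_left₀ (osc_nonneg _ _) h2 2).trans (sq_sum_le_card_mul_sum_sq.trans ?_)
    exact mul_le_mul_of_nonneg_right (hc i) (Finset.sum_nonneg fun _ _ => sq_nonneg _)
  have h3 : ∑ i, ∑ p ∈ S i, rho c w p ^ 2 = ∑ i, ∑ _p ∈ S i, osc w (c i) ^ 2 := by
    rw [Finset.sum_sigma', Finset.sum_sigma']
    refine Finset.sum_nbij' (fun x => ⟨x.2.1, (x.1, -x.2.2)⟩) (fun x => ⟨x.2.1, (x.1, -x.2.2)⟩)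
      (fun x hx => ?_) (fun x hx => ?_) (fun x _ => by simp) (fun x _ => by simp) fun x _ => rfl
    · exact Finset.mem_sigma.2 ⟨Finset.mem_univ _, hsw _ _ (Finset.mem_sigma.1 hx).2⟩
    · exact Finset.mem_sigma.2 ⟨Finset.mem_univ _, hsw _ _ (Finset.mem_sigma.1 hx).2⟩
  calc _ ≤ ∑ i ∈ Finset.univ.filter (fun i => c i ⊆ strip), N₀ * ∑ p ∈ S i, rho c w p ^ 2 :=
        Finset.sum_le_sum fun i hi => h1 i (Finset.mem_filter.1 hi).2
    _ ≤ ∑ i, N₀ * ∑ p ∈ S i, rho c w p ^ 2 :=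
        Finset.sum_le_sum_of_subset_of_nonneg (Finset.filter_subset _ _) fun _ _ _ =>
          mul_nonneg (Nat.cast_nonneg _) (Finset.sum_nonneg fun _ _ => sq_nonneg _)
    _ = N₀ * ∑ i, ∑ _p ∈ S i, osc w (c i) ^ 2 := by rw [← Finset.mul_sum, h3]
    _ ≤ N₀ * ∑ i, N₀ * osc w (c i) ^ 2 := by
        refine mul_le_mul_of_nonneg_left (Finset.sum_le_sum fun i _ => ?_) (Nat.cast_nonneg _)
        rw [Finset.sum_const, nsmul_eq_mul]
        exact mul_le_mul_of_nonneg_right (hc i) (sq_nonneg _)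
    _ = _ := by rw [← Finset.mul_sum, II]; ring

theorem Ctx.wall (h : Ctx c N₀ w u η) (α : ℝ) : ∃ V : Set ℂ, Cn V ∧ (∃ a ∈ V, a.im = 0) ∧
    (∃ b ∈ V, b.im = 1) ∧ ∀ z ∈ V, |u z - α| ≤ N₀ * η := by
  have hI := h.ext.II_pos h.til
  obtain ⟨C, hC⟩ := h.conj.u_lin h.til
  set a : ℝ := (α - N₀ * η - C) / II c w with ha
  set b : ℝ := (α + N₀ * η + C + 1) / II c w with hb
  have ha' : II c w * a = α - N₀ * η - C := by rw [ha]; field_simp
  have hb' : II c w * b = α + N₀ * η + C + 1 := by rw [hb]; field_simp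
  let φ : ℂ → ℂ := fun z => ((a + (b - a) * z.re : ℝ) : ℂ) + (z.im : ℂ) * Complex.I
  have hre : ∀ z, (φ z).re = a + (b - a) * z.re := fun z => by simp [φ]
  have him : ∀ z, (φ z).im = z.im := fun z => by simp [φ]
  have hs : ∀ z ∈ Icc (0 : ℝ) 1 ×ℂ Icc (0 : ℝ) 1, φ z ∈ strip := fun z hz => by
    change 0 ≤ (φ z).im ∧ (φ z).im ≤ 1
    rw [him]
    exact hz.2
  have h0 : ∀ y ∈ closure (strip ∩ u ⁻¹' Iic α), u y ≤ α + N₀ * η := fun y hy => by
    obtain ⟨t, ht, e⟩ := h.u_closure hy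
    linarith [(abs_le.1 e).2, mem_Iic.1 ht]
  have h1 : ∀ y ∈ closure (strip ∩ u ⁻¹' Ioi α), α - N₀ * η < u y := fun y hy => by
    obtain ⟨t, ht, e⟩ := h.u_closure hy
    linarith [(abs_le.1 e).1, mem_Ioi.1 ht]
  obtain ⟨K, k1, k2, k3, k4, ⟨p, -, hp, hp'⟩, q, -, hq, hq'⟩ := R40.cross φ (by fun_prop)
    (P0 := closure (strip ∩ u ⁻¹' Iic α)) (P1 := closure (strip ∩ u ⁻¹' Ioi α)) isClosed_closure
    isClosed_closure
    (fun z hz => (le_or_gt (u (φ z)) α).imp (fun e => subset_closure ⟨hs z hz, e⟩)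
      fun e => subset_closure ⟨hs z hz, e⟩)
    (fun z hz e e' => by
      have e1 := (abs_le.1 (hC _ (hs z hz))).2
      rw [hre, e, mul_zero, add_zero] at e1
      linarith [h1 _ e'])
    (fun z hz e e' => by
      have e1 := (abs_le.1 (hC _ (hs z hz))).1
      rw [hre, e, mul_one, add_sub_cancel] at e1
      linarith [h0 _ e'])
  refine ⟨K, ⟨k1, k2, fun z hz => ?_⟩, ⟨_, hp', by rw [him, hp]⟩, ⟨_, hq', by rw [him, hq]⟩,
    fun z hz => abs_le.2 ⟨by linarith [h1 z (k3 hz).2], by linarith [h0 z (k3 hz).1]⟩⟩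
  obtain ⟨y, hy, rfl⟩ := k4 hz
  exact hs y hy

end Crest.Agent.R193
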