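import Crest.Agent.R193.FU.UProp
import Crest.Agent.R193.FU.Good

/-!
# R193/FU/Window: window sums and the box estimate (`μ = N₀ η`)

* `window_low`: `long_frontier` and `u_lin` give a continuum `K ⊆ frontier` with points in `{u ≤ α}` and `{β ≤ u}`; `subcont` with `closure (strip ∩ u⁻¹ Iic α)`, `closure (strip ∩ u⁻¹ Icc α β)`,
  `closure (strip ∩ u⁻¹ Ici β)`; `u_closure`, `Conj.lip`.
* `window_up`: `m` large, `H'` from `window_low` for `[β + 2μ, α + m I - 2μ]`, `T' = hits H'` (cut tiles meeting `u⁻¹` of that window); `T`, `T'` are disjoint (`u_tile`, `μ > 0`), for each `i` at most `m`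
  integers `n` have `(i,n) ∈ T ∪ T'` (two of them differ by less than `m`: `Conj.per_int`, `u_tile`), so `∑_{T ∪ T'} rho ≤ m cutSum = m I`.
* `sq_sum`: `rho p ^ 2 = ∫ 1_{Cut p s} rho p ds`, cut levels lie in `[s₁ - η, s₂ + η]`, a.e. such level is `Gd` (`ae_cutSum`), `window_up`.
* `box`: `osc u + osc w ≤ 2 ∑_{p' meets p} rho p'`, Cauchy–Schwarz, symmetry of `mult`, the neighbours meet the box enlarged by `(μ, η)`, `sq_sum`.
-/

set_option autoImplicit false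
open Set Metric Filter Topology MeasureTheory

namespace Crest.Agent.R193

variable {ι : Type} [Fintype ι] {c : ι → Set ℂ} {N₀ : ℕ} {w u : ℂ → ℝ} {η : ℝ}

theorem Ctx2.cut_strip (h : Ctx2 c N₀ w u η) {s : ℝ} (hs : Gd c w s) {p : ι × ℤ}
    (hp : Cut w (tile c p) s) : tile c p ⊆ strip := by
  obtain ⟨⟨a, ha, ha'⟩, b, hb, hb'⟩ := (h.ext.toComp.cut_tile p s).1 hp
  exact (tile_subset_strip p).2 (h.hin _ ⟨a, ha, ha'.trans hs.2.1⟩ ⟨b, hb, hs.1.trans hb'.le⟩)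

theorem Ctx2.mid_strip (h : Ctx2 c N₀ w u η) {p : ι × ℤ} {z : ℂ} (hz : z ∈ tile c p)
    (h1 : 1 / 8 ≤ w z) (h2 : w z ≤ 7 / 8) : tile c p ⊆ strip := by
  have e := h.ext.toComp.per_int (z - p.2) p.2
  rw [sub_add_cancel] at e
  exact (tile_subset_strip p).2 (h.hin _ ⟨_, hz, e ▸ h2⟩ ⟨_, hz, e ▸ h1⟩)

theorem Ctx.window_low (h : Ctx c N₀ w u η) {s α β : ℝ} (h0 : 0 ≤ s) (h1 : s < 1)
    (hαβ : 2 * (N₀ * η) < β - α) : ∃ H : Set ℂ, Cn H ∧ H.Nonempty ∧ H ⊆ frontier {z | s < w z} ∧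
      H ⊆ closure (strip ∩ u ⁻¹' Icc α β) ∧ β - α - 2 * (N₀ * η) ≤ len c w H := by
  obtain ⟨C, hC⟩ := h.conj.u_lin h.til
  have hI := h.ext.II_pos h.til
  have hw := h.ext.toComp
  obtain ⟨K, k1, k2, k3, ⟨a, ha, ha'⟩, b, hb, hb'⟩ :=
    hw.long_frontier h0 h1 ((|α| + |β| + C) / II c w)
  have hKs : K ⊆ strip := k3.trans (hw.frontier_subset s)
  have e : II c w * ((|α| + |β| + C) / II c w) = |α| + |β| + C := mul_div_cancel₀ _ hI.ne'
  have hua : u a ≤ α := by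
    have a1 := mul_le_mul_of_nonneg_left ha' hI.le
    rw [mul_neg, e] at a1
    linarith [(abs_le.1 (hC a (hKs ha))).2, neg_abs_le α, abs_nonneg β]
  have hub : β ≤ u b := by
    have a1 := mul_le_mul_of_nonneg_left hb' hI.le
    rw [e] at a1
    linarith [(abs_le.1 (hC b (hKs hb))).1, le_abs_self β, abs_nonneg α]
  have hA : ∀ y ∈ closure (strip ∩ u ⁻¹' Iic α), u y ≤ α + N₀ * η := fun y hy => by
    obtain ⟨t, ht, ht'⟩ := h.u_closure hy
    linarith [(abs_le.1 ht').2, mem_Iic.1 ht]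
  have hB : ∀ y ∈ closure (strip ∩ u ⁻¹' Ici β), β - N₀ * η ≤ u y := fun y hy => by
    obtain ⟨t, ht, ht'⟩ := h.u_closure hy
    linarith [(abs_le.1 ht').1, mem_Ici.1 ht]
  obtain ⟨H, b1, b2, b3, ⟨x, hx, hx'⟩, y, hy, hy'⟩ := subcont (A := closure (strip ∩ u ⁻¹' Iic α))
    (M := closure (strip ∩ u ⁻¹' Icc α β)) (B := closure (strip ∩ u ⁻¹' Ici β)) k1 k2
    isClosed_closure isClosed_closure isClosed_closure (fun z hz => by
      rcases le_total (u z) α with a1 | a1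
      · exact Or.inl (Or.inl (subset_closure ⟨hKs hz, a1⟩))
      · rcases le_total (u z) β with a2 | a2
        · exact Or.inl (Or.inr (subset_closure ⟨hKs hz, a1, a2⟩))
        · exact Or.inr (subset_closure ⟨hKs hz, a2⟩))
    (eq_empty_of_forall_notMem fun z hz => by linarith [hA z hz.1.2, hB z hz.2])
    ⟨a, ha, subset_closure ⟨hKs ha, hua⟩⟩ ⟨b, hb, subset_closure ⟨hKs hb, hub⟩⟩
  have hH : Cn H := ⟨b1, b2, fun z hz => hKs (b3 hz).1⟩
  refine ⟨H, hH, ⟨x, hx⟩, fun z hz => k3 (b3 hz).1, fun z hz => (b3 hz).2, ?_⟩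
  linarith [(abs_le.1 (h.conj.lip H hH x hx y hy)).1, hA x hx', hB y hy']

theorem Ctx2.window_up (h : Ctx2 c N₀ w u η) {s α β : ℝ} (hs : Gd c w s) (hαβ : α ≤ β)
    (T : Finset (ι × ℤ)) (hT : ∀ p ∈ T, Cut w (tile c p) s ∧ ∃ z ∈ tile c p, u z ∈ Icc α β) :
    ∑ p ∈ T, rho c w p ≤ β - α + 6 * (N₀ * η) := by
  classical
  have hI := h.ext.II_pos h.til
  have hμ : 0 < N₀ * η := h.η_pos.trans_le h.η_le
  obtain ⟨m, hm⟩ := exists_nat_gt ((β - α + 6 * (N₀ * η)) / II c w)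
  rw [div_lt_iff₀ hI] at hm
  obtain ⟨H, hH, -, hHf, hHu, hlen⟩ := h.toCtx.window_low (s := s) (α := β + 2 * (N₀ * η))
    (β := α + m * II c w - 2 * (N₀ * η)) (by linarith [hs.1]) (by linarith [hs.2.1]) (by linarith)
  rw [h.til.len_eq hH.cpt.isBounded] at hlen
  set T' := (h.til.hits_finite hH.cpt.isBounded).toFinset with hT'
  have h1 : ∀ p ∈ T', Cut w (tile c p) s ∧ ∃ z ∈ tile c p,
      u z ∈ Icc (β + 2 * (N₀ * η)) (α + m * II c w - 2 * (N₀ * η)) := fun p hp => by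
    obtain ⟨y, a1, a2⟩ := (Finite.mem_toFinset _).1 hp
    obtain ⟨z, b1, b2⟩ := mem_closure_iff.1 (hHu a2) _ (h.til.tile_open p) a1
    exact ⟨cut_of_frontier (h.til.tile_open p) ⟨y, a1, hHf a2⟩, z, b1, b2.2⟩
  have hd : Disjoint T T' := Finset.disjoint_left.2 fun p hp hp' => by
    obtain ⟨a1, z, a2, a3⟩ := hT p hp
    obtain ⟨-, z', b2, b3⟩ := h1 p hp'
    linarith [(abs_le.1 (h.u_tile (h.cut_strip hs a1) a2 b2)).1, a3.2, b3.1]
  have h2 : ∀ p ∈ T ∪ T', Cut w (tile c p) s ∧ ∃ z ∈ tile c p,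
      u z ∈ Icc α (α + m * II c w - 2 * (N₀ * η)) := fun p hp => by
    rcases Finset.mem_union.1 hp with hp | hp
    · obtain ⟨a1, z, a2, a3⟩ := hT p hp
      exact ⟨a1, z, a2, a3.1, by linarith [a3.2]⟩
    · obtain ⟨a1, z, a2, a3⟩ := h1 p hp
      exact ⟨a1, z, a2, by linarith [a3.1], a3.2⟩
  have h3 : ∑ p ∈ T ∪ T', rho c w p ≤ m * II c w := by
    rw [← hs.2.2, ← Finset.sum_fiberwise_of_maps_to
      (t := Finset.univ.filter fun i => Cut w (c i) s) (g := Prod.fst) fun p hp =>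
        Finset.mem_filter.2 ⟨Finset.mem_univ _, (h.ext.toComp.cut_tile p s).1 (h2 p hp).1⟩]
    have h4 : cutSum c w s = ∑ i ∈ Finset.univ.filter (fun i => Cut w (c i) s), osc w (c i) := by
      unfold cutSum; congr!
    rw [h4, Finset.mul_sum]
    refine Finset.sum_le_sum fun i _ => ?_
    set F := (T ∪ T').filter (fun p => p.1 = i) with hF
    have h5 : ∑ p ∈ F, rho c w p = F.card * osc w (c i) := by
      rw [Finset.sum_congr rfl (g := fun _ => osc w (c i)) fun p hp => by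
        rw [rho, (Finset.mem_filter.1 hp).2], Finset.sum_const, nsmul_eq_mul]
    rw [h5]
    refine mul_le_mul_of_nonneg_right (Nat.cast_le.2 ?_) (osc_nonneg _ _)
    rcases F.eq_empty_or_nonempty with h0 | h0
    · simp [h0]
    obtain ⟨p₀, hp₀, hmin⟩ := F.exists_min_image Prod.snd h0
    have h6 : F.card ≤ (Finset.Ico p₀.2 (p₀.2 + m)).card := by
      refine Finset.card_le_card_of_injOn Prod.snd (fun p hp => ?_) fun p hp q hq e =>
        Prod.ext ((Finset.mem_filter.1 hp).2.trans (Finset.mem_filter.1 hq).2.symm) e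
      refine Finset.mem_coe.2 (Finset.mem_Ico.2 ⟨hmin p hp, ?_⟩)
      obtain ⟨a0, a1⟩ := Finset.mem_filter.1 hp
      obtain ⟨b0, b1⟩ := Finset.mem_filter.1 hp₀
      obtain ⟨a2, z, a3, a4⟩ := h2 p a0
      obtain ⟨b2, z₀, b3, b4⟩ := h2 p₀ b0
      have c1 : z + ((p₀.2 - p.2 : ℤ) : ℂ) ∈ tile c p₀ := by
        have : z + ((p₀.2 - p.2 : ℤ) : ℂ) - p₀.2 = z - p.2 := by push_cast; ring
        change _ ∈ c p₀.1
        rw [this, b1, ← a1]
        exact a3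
      have c2 := h.u_tile (h.cut_strip hs b2) c1 b3
      rw [h.conj.per_int (h.cut_strip hs a2 a3)] at c2
      have c3 : ((p.2 : ℝ) - p₀.2) * II c w < m * II c w := by
        have := (abs_le.1 c2).1
        push_cast at this
        linarith [a4.2, b4.1]
      have c4 : (p.2 : ℝ) < p₀.2 + m := by linarith [lt_of_mul_lt_mul_right c3 hI.le]
      exact_mod_cast c4
    simpa using h6
  rw [Finset.sum_union hd] at h3
  linarith

theorem Ctx2.sq_sum (h : Ctx2 c N₀ w u η) {α β s₁ s₂ : ℝ} (hαβ : α ≤ β) (h1 : 1 / 8 + η ≤ s₁)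
    (h2 : s₁ ≤ s₂) (h3 : s₂ + η ≤ 7 / 8) (T : Finset (ι × ℤ))
    (hT : ∀ p ∈ T, ∃ z ∈ tile c p, u z ∈ Icc α β ∧ w z ∈ Icc s₁ s₂) :
    ∑ p ∈ T, rho c w p ^ 2 ≤ (β - α + 6 * (N₀ * η)) * (s₂ - s₁ + 2 * η) := by
  classical
  have hη := h.η_pos
  have hμ : 0 < N₀ * η := h.η_pos.trans_le h.η_le
  have hw := h.ext.toComp
  have hv := fun p : ι × ℤ => volume_cut (hw.bdd.isBounded (tile c p))
  have hint : ∀ p : ι × ℤ, Integrable ({s | Cut w (tile c p) s}.indicator fun _ => rho c w p) :=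
    fun p => (integrable_indicator_iff (hv p).1).2
      (integrableOn_const (by rw [(hv p).2]; exact ENNReal.ofReal_ne_top))
  have h4 : ∑ p ∈ T, rho c w p ^ 2 =
      ∫ s, ∑ p ∈ T, ({s | Cut w (tile c p) s}.indicator fun _ => rho c w p) s := by
    rw [integral_finsetSum _ fun p _ => hint p]
    refine Finset.sum_congr rfl fun p _ => ?_
    rw [integral_indicator_const _ (hv p).1, Measure.real, (hv p).2,
      ENNReal.toReal_ofReal (osc_nonneg _ _), hw.osc_tile, smul_eq_mul, sq]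
  have h5 : (β - α + 6 * (N₀ * η)) * (s₂ - s₁ + 2 * η) =
      ∫ s, ((Icc (s₁ - η) (s₂ + η)).indicator fun _ => β - α + 6 * (N₀ * η)) s := by
    rw [integral_indicator_const _ measurableSet_Icc, Real.volume_real_Icc_of_le (by linarith),
      smul_eq_mul]
    ring
  rw [h4, h5]
  refine integral_mono_ae (integrable_finsetSum _ fun p _ => hint p)
    ((integrable_indicator_iff measurableSet_Icc).2 (integrableOn_const measure_Icc_lt_top.ne)) ?_
  filter_upwards [h.ext.ae_cutSum] with s hs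
  by_cases hm : s ∈ Icc (s₁ - η) (s₂ + η)
  · rw [indicator_of_mem hm]
    have hg : Gd c w s := ⟨by linarith [hm.1], by linarith [hm.2],
      hs ⟨by linarith [hm.1], by linarith [hm.2]⟩⟩
    refine le_trans (le_of_eq ?_) (h.window_up hg hαβ (T.filter fun p => Cut w (tile c p) s)
      fun p hp => ?_)
    · rw [Finset.sum_filter]
      exact Finset.sum_congr rfl fun p _ => by simp [indicator_apply]
    · obtain ⟨a1, a2⟩ := Finset.mem_filter.1 hp
      obtain ⟨z, b1, b2, -⟩ := hT p a1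
      exact ⟨a2, z, b1, b2⟩
  · rw [indicator_of_notMem hm]
    refine (Finset.sum_eq_zero fun p hp => indicator_of_notMem (fun hc => hm ?_) _).le
    obtain ⟨⟨a, ha, ha'⟩, b, hb, hb'⟩ := hc
    obtain ⟨z, b1, -, b2⟩ := hT p hp
    exact ⟨by linarith [(abs_le.1 (h.w_tile ha b1)).1, b2.1],
      by linarith [(abs_le.1 (h.w_tile hb b1)).2, b2.2]⟩

theorem Ctx2.box (h : Ctx2 c N₀ w u η) {α β s₁ s₂ : ℝ} (hαβ : α ≤ β) (h1 : 1 / 4 ≤ s₁)
    (h2 : s₁ ≤ s₂) (h3 : s₂ ≤ 3 / 4) (T : Finset (ι × ℤ))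
    (hT : ∀ p ∈ T, ∃ z ∈ tile c p, u z ∈ Icc α β ∧ w z ∈ Icc s₁ s₂) :
    ∑ p ∈ T, (osc u (tile c p) + osc w (tile c p)) ^ 2 ≤
      4 * (N₀ : ℝ) ^ 2 * ((β - α + 8 * (N₀ * η)) * (s₂ - s₁ + 4 * η)) := by
  classical
  have hη := h.η_pos
  have hle := h.η_le
  have hsm := h.small
  have hw := h.ext.toComp
  choose Nb hNb1 hNb2 using h.til.mult
  set Nb' : ι × ℤ → Finset (ι × ℤ) := fun p =>
    (Nb p).filter fun p' => (tile c p ∩ tile c p').Nonempty with hNb'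
  have hr0 : ∀ p, 0 ≤ rho c w p := fun p => osc_nonneg _ _
  have hst : ∀ p ∈ T, tile c p ⊆ strip := fun p hp => by
    obtain ⟨z, b1, -, b2⟩ := hT p hp
    exact h.mid_strip b1 (by linarith [b2.1]) (by linarith [b2.2])
  have hN0 : (0 : ℝ) ≤ N₀ := Nat.cast_nonneg _
  have a1 : ∀ p ∈ T, (osc u (tile c p) + osc w (tile c p)) ^ 2 ≤
      4 * N₀ * ∑ p' ∈ Nb' p, rho c w p' ^ 2 := fun p hp => by
    have b0 : 0 ≤ ∑ p' ∈ Nb' p, rho c w p' := Finset.sum_nonneg fun p' _ => hr0 p'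
    have b1 : osc u (tile c p) ≤ ∑ p' ∈ Nb' p, rho c w p' := osc_le b0 fun a ha b hb => by
      obtain ⟨K, k1, k2, k3, k4, k5⟩ := h.til.join ha hb
      refine (le_abs_self _).trans ((h.conj.lip K ⟨k1, k2, k3.trans (hst p hp)⟩ a k4 b k5).trans
        (h.til.len_le_sum _ fun p' ⟨z, c1, c2⟩ => ?_))
      exact Finset.mem_filter.2 ⟨hNb2 p p' ⟨z, k3 c2, c1⟩, z, k3 c2, c1⟩
    have b2 : osc w (tile c p) ≤ ∑ p' ∈ Nb' p, rho c w p' := by
      obtain ⟨z, c1, -⟩ := hT p hp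
      rw [hw.osc_tile]
      exact Finset.single_le_sum (fun p' _ => hr0 p')
        (Finset.mem_filter.2 ⟨hNb2 p p ⟨z, c1, c1⟩, z, c1, c1⟩)
    have b3 : ((Nb' p).card : ℝ) ≤ N₀ :=
      Nat.cast_le.2 ((Finset.card_filter_le _ _).trans (hNb1 p))
    have b4 := (sq_sum_le_card_mul_sum_sq (s := Nb' p) (f := rho c w)).trans
      (mul_le_mul_of_nonneg_right b3 (Finset.sum_nonneg fun p' _ => sq_nonneg _))
    have b5 := pow_le_pow_left₀ (add_nonneg (osc_nonneg _ _) (osc_nonneg _ _)) (add_le_add b1 b2) 2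
    nlinarith
  have a2 : ∑ p ∈ T, ∑ p' ∈ Nb' p, rho c w p' ^ 2 ≤ N₀ * ∑ p' ∈ T.biUnion Nb', rho c w p' ^ 2 := by
    rw [Finset.sum_comm' (t' := T.biUnion Nb') (s' := fun p' => T.filter fun p => p' ∈ Nb' p)
      (fun p p' => ⟨fun ⟨x1, x2⟩ => ⟨Finset.mem_filter.2 ⟨x1, x2⟩, Finset.mem_biUnion.2 ⟨p, x1, x2⟩⟩,
        fun ⟨x1, _⟩ => Finset.mem_filter.1 x1⟩), Finset.mul_sum]
    refine Finset.sum_le_sum fun p' _ => ?_
    rw [Finset.sum_const, nsmul_eq_mul]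
    refine mul_le_mul_of_nonneg_right (Nat.cast_le.2 ((Finset.card_le_card fun p hp => ?_).trans
      (hNb1 p'))) (sq_nonneg _)
    exact hNb2 p' p (by rw [inter_comm]; exact (Finset.mem_filter.1 (Finset.mem_filter.1 hp).2).2)
  have a3 := h.sq_sum (α := α - N₀ * η) (β := β + N₀ * η) (s₁ := s₁ - η) (s₂ := s₂ + η)
    (by linarith) (by linarith) (by linarith) (by linarith) (T.biUnion Nb') fun p' hp' => by
      obtain ⟨p, hp, hp'⟩ := Finset.mem_biUnion.1 hp'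
      obtain ⟨z', c1, c2⟩ := (Finset.mem_filter.1 hp').2
      obtain ⟨z, b1, b2, b3⟩ := hT p hp
      have d1 := abs_le.1 (h.u_tile (hst p hp) c1 b1)
      have d2 := abs_le.1 (h.w_tile c1 b1)
      exact ⟨z', c2, ⟨by linarith [d1.1, b2.1], by linarith [d1.2, b2.2]⟩,
        by linarith [d2.1, b3.1], by linarith [d2.2, b3.2]⟩
  refine (Finset.sum_le_sum a1).trans ?_
  rw [← Finset.mul_sum]
  have a4 := mul_le_mul_of_nonneg_left (a2.trans (mul_le_mul_of_nonneg_left a3 hN0))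
    (by positivity : (0 : ℝ) ≤ 4 * N₀)
  exact a4.trans_eq (by ring)

end Crest.Agent.R193
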